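import Vale.Agent.Lib.P028E.Block

/-! From block estimates to full measure, with weights. -/

open MeasureTheory Set Filter Topology
open Vale.Agent.Lib.P028 Vale.Agent.Lib.P028E

namespace Vale.Agent.Lib.P028H

/-- The key inequality behind the main measure theoretic step. -/
lemma block_key_w (γ : ℝ) (ψ w : ℕ → ℝ) (h0 : ∀ q, 0 ≤ ψ q) (h1 : ∀ q : ℕ, 1 ≤ q → ψ q ≤ 1)
    (hw0 : ∀ q, 0 ≤ w q) (hw1 : ∀ q, w q ≤ 1)
    (hdiv : ¬ Summable (fun q => w q * ψ q)) (E : ℕ → Set ℝ) (hopen : ∀ q, IsOpen (E q))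
    (hE : ∀ q, E q ⊆ arcSet q γ (ψ q)) (c K : ℝ) (hc : 0 < c)
    (hcell : ∀ N : ℕ, 0 < N → ∃ q₁ : ℕ, ∀ q, q₁ ≤ q → 0 < ψ q → ∀ n : ℕ, n < N →
        c / N * ψ q ≤ (volume (E q ∩ Ioc ((n : ℝ) / N) (((n : ℝ) + 1) / N))).toReal)
    (hsec : ∃ q₂ : ℕ, ∀ B : Finset ℕ, (∀ q ∈ B, q₂ ≤ q ∧ 0 < ψ q) → 1 ≤ ∑ q ∈ B, w q * ψ q →
        ∑ q ∈ B, w q * ψ q ≤ 2 → ∑ q ∈ B, ∑ r ∈ B, w q * w r * Ovl E q r ≤ K)
    (X : ℕ) (F : Set ℝ) (hF : F = {x : ℝ | ∀ q, X < q → x ∉ arcSet q γ (ψ q)} ∩ Icc 0 1)
    (η t : ℝ) (hη : 0 < η) (ht : 0 < t) :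
    c * (volume F).toReal ≤ t * η / 2 + K / (2 * t) := by
  classical
  have hGclosed : IsClosed {x : ℝ | ∀ q, X < q → x ∉ arcSet q γ (ψ q)} := by
    have : {x : ℝ | ∀ q, X < q → x ∉ arcSet q γ (ψ q)} = ⋂ q : ℕ, ⋂ (_ : X < q), (arcSet q γ (ψ q))ᶜ := by
      ext x; simp
    rw [this]
    exact isClosed_iInter fun q => isClosed_iInter fun _ => (isOpen_arcSet q γ (ψ q)).isClosed_compl
  have hFcomp : IsCompact F := by
    rw [hF]
    exact isCompact_Icc.inter_left hGclosed
  have hFmeas : MeasurableSet F := hFcomp.isClosed.measurableSet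
  have hFfin : volume F ≠ ⊤ := hFcomp.measure_lt_top.ne
  obtain ⟨O, hFO, hOopen, hOlt⟩ := Set.exists_isOpen_lt_add F hFfin (ε := ENNReal.ofReal η)
    (by simpa using hη)
  obtain ⟨ρ, hρ, hthick⟩ := hFcomp.exists_cthickening_subset_open hOopen hFO
  obtain ⟨N, hNρ⟩ := exists_nat_gt (2 / ρ)
  have hNR : (0 : ℝ) < N := lt_trans (by positivity) hNρ
  have hN : 0 < N := by exact_mod_cast hNR
  have hinvN : 1 / (N : ℝ) ≤ ρ := by
    rw [div_lt_iff₀ hρ] at hNρ
    rw [div_le_iff₀ hNR]
    linarith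
  set cell : ℕ → Set ℝ := fun n => Ioc ((n : ℝ) / N) (((n : ℝ) + 1) / N) with hcelldef
  have hcellm : ∀ n, MeasurableSet (cell n) := fun n => measurableSet_Ioc
  have hcellvol : ∀ n, volume (cell n) = ENNReal.ofReal (1 / N) := by
    intro n
    simp only [hcelldef, Real.volume_Ioc]
    congr 1
    field_simp
    ring
  have hcelldisj : Set.Pairwise (↑(Finset.range N) : Set ℕ) (Function.onFun Disjoint cell) := by
    intro a _ b _ hab
    rw [Function.onFun, Set.disjoint_left]
    rintro x ⟨ha1, ha2⟩ ⟨hb1, hb2⟩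
    have h1 : ((a : ℝ) + 1) / N ≤ (b : ℝ) / N ∨ ((b : ℝ) + 1) / N ≤ (a : ℝ) / N := by
      rcases Nat.lt_or_gt_of_ne hab with h | h
      · left
        apply div_le_div_of_nonneg_right _ hNR.le
        exact_mod_cast h
      · right
        apply div_le_div_of_nonneg_right _ hNR.le
        exact_mod_cast h
    rcases h1 with h1 | h1 <;> linarith
  have hcellsub : ∀ n, n < N → cell n ⊆ Ioc (0 : ℝ) 1 := by
    intro n hn x hx
    obtain ⟨hx1, hx2⟩ := hx
    constructor
    · have : (0 : ℝ) ≤ (n : ℝ) / N := by positivity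
      linarith
    · have h3 : ((n : ℝ) + 1) / N ≤ 1 := by
        rw [div_le_one hNR]
        exact_mod_cast hn
      linarith
  set T : Finset ℕ := (Finset.range N).filter (fun n => (cell n ∩ F).Nonempty) with hT
  have hTsubO : ∀ n ∈ T, cell n ⊆ O := by
    intro n hn y hy
    obtain ⟨z, hzc, hzF⟩ := (Finset.mem_filter.1 hn).2
    apply hthick
    apply Metric.mem_cthickening_of_dist_le y z ρ F hzF
    rw [Real.dist_eq]
    obtain ⟨hy1, hy2⟩ := hy
    obtain ⟨hz1, hz2⟩ := hzc
    have hw : ((n : ℝ) + 1) / N - (n : ℝ) / N = 1 / N := by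
      field_simp
      ring
    rw [abs_le]
    constructor <;> linarith
  set W : Set ℝ := ⋃ n ∈ T, cell n with hW
  have hWmeas : MeasurableSet W := Finset.measurableSet_biUnion _ (fun n _ => hcellm n)
  have hWO : W ⊆ O := iUnion₂_subset hTsubO
  have hWunit : W ⊆ Ioc (0 : ℝ) 1 := by
    apply iUnion₂_subset
    intro n hn
    exact hcellsub n (Finset.mem_range.1 (Finset.mem_filter.1 hn).1)
  have hFcover : F ⊆ {0} ∪ W := by
    intro x hx
    have hxI : x ∈ Icc (0 : ℝ) 1 := by
      rw [hF] at hx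
      exact hx.2
    rcases eq_or_lt_of_le hxI.1 with h | h
    · left; exact h.symm
    · right
      obtain ⟨n, hn, hxn⟩ := mem_cell_of_pos hN h hxI.2
      refine mem_iUnion₂.2 ⟨n, ?_, hxn⟩
      exact Finset.mem_filter.2 ⟨Finset.mem_range.2 hn, x, hxn, hx⟩
  have hFT : (volume F).toReal ≤ (T.card : ℝ) / N := by
    have h1 : volume F ≤ ∑ n ∈ T, volume (cell n) := by
      calc volume F ≤ volume ({0} ∪ W) := measure_mono hFcover
        _ ≤ volume ({0} : Set ℝ) + volume W := measure_union_le _ _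
        _ = volume W := by simp
        _ ≤ ∑ n ∈ T, volume (cell n) := measure_biUnion_finset_le _ _
    have h2 : ∑ n ∈ T, volume (cell n) = ENNReal.ofReal ((T.card : ℝ) / N) := by
      simp_rw [hcellvol]
      rw [Finset.sum_const, nsmul_eq_mul]
      rw [ENNReal.ofReal_div_of_pos hNR, ENNReal.ofReal_div_of_pos hNR]
      simp [div_eq_mul_inv]
    rw [h2] at h1
    exact ENNReal.toReal_le_of_le_ofReal (by positivity) h1
  obtain ⟨q₁, hq₁⟩ := hcell N hN
  obtain ⟨q₂, hq₂⟩ := hsec
  obtain ⟨B, hB', hm1, hm2⟩ := exists_block (fun q => w q * ψ q) (fun q => mul_nonneg (hw0 q) (h0 q))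
    (fun q hq => by
      have h2 := h1 q hq
      have h3 := hw1 q
      have h4 := hw0 q
      have h5 := h0 q
      nlinarith) hdiv (max (X + 1) (max q₁ q₂))
  have hB : ∀ q ∈ B, max (X + 1) (max q₁ q₂) ≤ q ∧ 0 < ψ q := fun q hq => by
    refine ⟨(hB' q hq).1, ?_⟩
    have h2 : 0 < w q * ψ q := (hB' q hq).2
    by_contra h3
    have h4 : ψ q ≤ 0 := not_lt.mp h3
    have h5 : w q * ψ q ≤ 0 := mul_nonpos_of_nonneg_of_nonpos (hw0 q) h4
    linarith
  have hBX : ∀ q ∈ B, X < q := fun q hq => by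
    have := (hB q hq).1
    have h3 : X + 1 ≤ max (X + 1) (max q₁ q₂) := le_max_left _ _
    omega
  have hBq₁ : ∀ q ∈ B, q₁ ≤ q := fun q hq => by
    have := (hB q hq).1
    have h3 : q₁ ≤ max (X + 1) (max q₁ q₂) := le_trans (le_max_left _ _) (le_max_right _ _)
    omega
  have hBq₂ : ∀ q ∈ B, q₂ ≤ q := fun q hq => by
    have := (hB q hq).1
    have h3 : q₂ ≤ max (X + 1) (max q₁ q₂) := le_trans (le_max_right _ _) (le_max_right _ _)
    omega
  have hovl := hq₂ B (fun q hq => ⟨hBq₂ q hq, (hB q hq).2⟩) hm1 hm2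
  set m : ℝ := ∑ q ∈ B, w q * ψ q with hm
  set f : ℝ → ℝ := fun x => ∑ q ∈ B, w q * ind (E q) x with hf
  have hEm : ∀ q, MeasurableSet (E q) := fun q => (hopen q).measurableSet
  have hfmeas : Measurable f := Finset.measurable_sum _ (fun q _ => (measurable_ind (hEm q)).const_mul (w q))
  have hf0 : ∀ x, 0 ≤ f x := fun x => Finset.sum_nonneg (fun q _ => mul_nonneg (hw0 q) (ind_nonneg _ _))
  have hfC : ∀ x, f x ≤ B.card := by
    intro x
    calc f x ≤ ∑ q ∈ B, (1 : ℝ) := Finset.sum_le_sum (fun q _ => by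
          have h2 := ind_le_one (E q) x
          have h3 := ind_nonneg (E q) x
          have h4 := hw1 q
          have h5 := hw0 q
          nlinarith)
      _ = B.card := by simp
  have hfabs : ∀ x, |f x| ≤ B.card := fun x => by
    rw [abs_of_nonneg (hf0 x)]; exact hfC x
  have hfint : IntegrableOn f (Ioc (0 : ℝ) 1) volume := integrableOn_of_bdd hfmeas _ hfabs
  have hf2meas : Measurable (fun x => f x ^ 2) := hfmeas.pow_const 2
  have hf2int : IntegrableOn (fun x => f x ^ 2) (Ioc (0 : ℝ) 1) volume := by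
    apply integrableOn_of_bdd hf2meas ((B.card : ℝ) ^ 2)
    intro x
    rw [abs_of_nonneg (by positivity)]
    exact pow_le_pow_left₀ (hf0 x) (hfC x) 2
  -- integral over a cell
  have hcellint : ∀ n ∈ T, c / N * m ≤ ∫ x in cell n, f x := by
    intro n hn
    have hn' : n < N := Finset.mem_range.1 (Finset.mem_filter.1 hn).1
    have hint : ∫ x in cell n, f x = ∑ q ∈ B, w q * ∫ x in cell n, ind (E q) x := by
      rw [hf]
      simp only
      rw [integral_finsetSum]
      · apply Finset.sum_congr rfl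
        intro q _
        rw [integral_const_mul]
      · intro q _
        apply Integrable.const_mul
        apply IntegrableOn.mono_set _ (hcellsub n hn')
        apply integrableOn_of_bdd (measurable_ind (hEm q)) 1
        intro x
        rw [abs_of_nonneg (ind_nonneg _ _)]
        exact ind_le_one _ _
    rw [hint, hm, Finset.mul_sum]
    apply Finset.sum_le_sum
    intro q hq
    rw [setIntegral_ind (hEm q)]
    have h2 := hq₁ q (hBq₁ q hq) (hB q hq).2 n hn'
    have h3 := mul_le_mul_of_nonneg_left h2 (hw0 q)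
    calc c / (N : ℝ) * (w q * ψ q) = w q * (c / N * ψ q) := by ring
      _ ≤ _ := h3
  -- the sum over cells
  have hWint : ∫ x in W, f x = ∑ n ∈ T, ∫ x in cell n, f x := by
    apply integral_biUnion_finset T (fun n _ => hcellm n)
    · intro a ha b hb hab
      exact hcelldisj (Finset.mem_coe.2 (Finset.mem_filter.1 ha).1)
        (Finset.mem_coe.2 (Finset.mem_filter.1 hb).1) hab
    · intro n hn
      exact hfint.mono_set (hcellsub n (Finset.mem_range.1 (Finset.mem_filter.1 hn).1))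
  have hlower : c / N * m * T.card ≤ ∫ x in W, f x := by
    rw [hWint]
    calc c / N * m * T.card = ∑ n ∈ T, c / N * m := by
          rw [Finset.sum_const, nsmul_eq_mul]; ring
      _ ≤ _ := Finset.sum_le_sum hcellint
  -- pointwise
  have hFc : MeasurableSet Fᶜ := hFmeas.compl
  have hpt : ∀ x, f x ≤ t / 2 * ind Fᶜ x + f x ^ 2 / (2 * t) := by
    intro x
    by_cases hx : x ∈ F
    · have hfx : f x = 0 := by
        apply Finset.sum_eq_zero
        intro q hq
        have hxG : x ∉ arcSet q γ (ψ q) := by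
          rw [hF] at hx
          exact hx.1 q (hBX q hq)
        have hxE : x ∉ E q := fun h => hxG (hE q h)
        simp [ind, hxE]
      rw [hfx]
      have : 0 ≤ ind Fᶜ x := ind_nonneg _ _
      have h3 : 0 ≤ t / 2 * ind Fᶜ x := by positivity
      have h4 : (0 : ℝ) ^ 2 / (2 * t) = 0 := by simp
      linarith
    · have hi : ind Fᶜ x = 1 := by simp [ind, hx]
      rw [hi]
      have h5 : t / 2 * 1 + f x ^ 2 / (2 * t) - f x = (f x - t) ^ 2 / (2 * t) := by
        field_simp
        ring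
      have h6 : 0 ≤ (f x - t) ^ 2 / (2 * t) := by positivity
      linarith
  have hindint : IntegrableOn (ind Fᶜ) W volume := by
    apply IntegrableOn.mono_set _ hWunit
    apply integrableOn_of_bdd (measurable_ind hFc) 1
    intro x
    rw [abs_of_nonneg (ind_nonneg _ _)]
    exact ind_le_one _ _
  have hupper : ∫ x in W, f x ≤ t / 2 * (∫ x in W, ind Fᶜ x) + (∫ x in W, f x ^ 2) / (2 * t) := by
    have h3 : ∫ x in W, (t / 2 * ind Fᶜ x + f x ^ 2 / (2 * t)) =
        t / 2 * (∫ x in W, ind Fᶜ x) + (∫ x in W, f x ^ 2) / (2 * t) := by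
      rw [integral_add (hindint.const_mul _) ((hf2int.mono_set hWunit).div_const _)]
      rw [integral_const_mul, integral_div]
    rw [← h3]
    apply setIntegral_mono_on (hfint.mono_set hWunit)
    · exact (hindint.const_mul _).add ((hf2int.mono_set hWunit).div_const _)
    · exact hWmeas
    · intro x _
      exact hpt x
  have hO1 : ∫ x in W, ind Fᶜ x ≤ η := by
    rw [setIntegral_ind hFc]
    apply ENNReal.toReal_le_of_le_ofReal hη.le
    have h4 : Fᶜ ∩ W ⊆ O \ F := by
      rintro x ⟨hx1, hx2⟩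
      exact ⟨hWO hx2, hx1⟩
    have h5 : volume (O \ F) ≤ ENNReal.ofReal η := by
      rw [measure_sdiff hFO hFmeas.nullMeasurableSet hFfin]
      exact tsub_le_iff_right.2 (by
        rw [add_comm]
        exact hOlt.le)
    exact (measure_mono h4).trans h5
  have hO2 : ∫ x in W, f x ^ 2 ≤ K := by
    have h4 : ∫ x in W, f x ^ 2 ≤ ∫ x in Ioc (0 : ℝ) 1, f x ^ 2 := by
      apply setIntegral_mono_set hf2int
      · exact Filter.Eventually.of_forall (fun x => by positivity)
      · exact Filter.Eventually.of_forall hWunit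
    have h5 : ∫ x in Ioc (0 : ℝ) 1, f x ^ 2 = ∑ q ∈ B, ∑ r ∈ B, w q * w r * Ovl E q r := by
      have hexp : ∀ x, f x ^ 2 = ∑ q ∈ B, ∑ r ∈ B, w q * w r * (ind (E q) x * ind (E r) x) := by
        intro x
        rw [sq, hf]
        simp only
        rw [Finset.sum_mul_sum]
        apply Finset.sum_congr rfl
        intro q _
        apply Finset.sum_congr rfl
        intro r _
        ring
      simp_rw [hexp]
      have hpair : ∀ q r, IntegrableOn (fun x => ind (E q) x * ind (E r) x) (Ioc (0 : ℝ) 1) volume := by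
        intro q r
        apply integrableOn_of_bdd ((measurable_ind (hEm q)).mul (measurable_ind (hEm r))) 1
        intro x
        show |ind (E q) x * ind (E r) x| ≤ 1
        rw [abs_of_nonneg (mul_nonneg (ind_nonneg _ _) (ind_nonneg _ _))]
        have h6 := ind_le_one (E q) x
        have h7 := ind_le_one (E r) x
        have h8 := ind_nonneg (E q) x
        have h9 := ind_nonneg (E r) x
        nlinarith
      rw [integral_finsetSum]
      · apply Finset.sum_congr rfl
        intro q _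
        rw [integral_finsetSum]
        · apply Finset.sum_congr rfl
          intro r _
          unfold Ovl
          rw [intervalIntegral.integral_of_le zero_le_one, integral_const_mul]
        · intro r _
          exact (hpair q r).const_mul _
      · intro q _
        exact integrable_finsetSum _ (fun r _ => (hpair q r).const_mul _)
    rw [h5] at h4
    exact h4.trans hovl
  have hT0 : (0 : ℝ) ≤ (T.card : ℝ) / N := by positivity
  have hcT : c * (volume F).toReal ≤ c / N * m * T.card := by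
    calc c * (volume F).toReal ≤ c * ((T.card : ℝ) / N) := by
          exact mul_le_mul_of_nonneg_left hFT hc.le
      _ = c * ((T.card : ℝ) / N) * 1 := by ring
      _ ≤ c * ((T.card : ℝ) / N) * m := by
          apply mul_le_mul_of_nonneg_left hm1 (by positivity)
      _ = c / N * m * T.card := by ring
  have ht2 : 0 < t / 2 := by positivity
  have h2t : 0 < 2 * t := by positivity
  calc c * (volume F).toReal ≤ ∫ x in W, f x := hcT.trans hlower
    _ ≤ t / 2 * (∫ x in W, ind Fᶜ x) + (∫ x in W, f x ^ 2) / (2 * t) := hupper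
    _ ≤ t / 2 * η + K / (2 * t) := by
        have h3 := mul_le_mul_of_nonneg_left hO1 ht2.le
        have h4 := div_le_div_of_nonneg_right hO2 h2t.le
        linarith
    _ = t * η / 2 + K / (2 * t) := by ring

/-- From block estimates to full measure, with weights. Same proof as `P028E.ae_of_blocks` and `P028E.block_key`, with `f x = ∑_{q ∈ B} w q * ind (E q) x`,
the block from `exists_block` applied to `fun q => w q * ψ q`, first moment `∫_{cell} f ≥ (c / N) ∑ w q ψ q ≥ c / N`. -/
theorem ae_of_blocks_w (γ : ℝ) (ψ w : ℕ → ℝ) (h0 : ∀ q, 0 ≤ ψ q) (h1 : ∀ q : ℕ, 1 ≤ q → ψ q ≤ 1)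
    (hw0 : ∀ q, 0 ≤ w q) (hw1 : ∀ q, w q ≤ 1)
    (hdiv : ¬ Summable (fun q => w q * ψ q)) (E : ℕ → Set ℝ) (hopen : ∀ q, IsOpen (E q))
    (hE : ∀ q, E q ⊆ arcSet q γ (ψ q)) (c K : ℝ) (hc : 0 < c) (hK : 0 < K)
    (hcell : ∀ N : ℕ, 0 < N → ∃ q₁ : ℕ, ∀ q, q₁ ≤ q → 0 < ψ q → ∀ n : ℕ, n < N →
        c / N * ψ q ≤ (volume (E q ∩ Ioc ((n : ℝ) / N) (((n : ℝ) + 1) / N))).toReal)
    (hsec : ∃ q₂ : ℕ, ∀ B : Finset ℕ, (∀ q ∈ B, q₂ ≤ q ∧ 0 < ψ q) → 1 ≤ ∑ q ∈ B, w q * ψ q →
        ∑ q ∈ B, w q * ψ q ≤ 2 → ∑ q ∈ B, ∑ r ∈ B, w q * w r * Ovl E q r ≤ K) :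
    ∀ᵐ x : ℝ, ∃ᶠ q : ℕ in atTop, ∃ a : ℤ, |(q : ℝ) * x - a - γ| < ψ q := by
  apply ae_of_tail_null
  intro X
  set F : Set ℝ := {x : ℝ | ∀ q, X < q → x ∉ arcSet q γ (ψ q)} ∩ Icc 0 1 with hF
  have hFfin : volume F ≠ ⊤ := by
    apply ne_of_lt
    calc volume F ≤ volume (Icc (0 : ℝ) 1) := measure_mono inter_subset_right
      _ < ⊤ := isCompact_Icc.measure_lt_top
  have hzero : (volume F).toReal = 0 := by
    by_contra hne
    have hpos : 0 < (volume F).toReal := lt_of_le_of_ne ENNReal.toReal_nonneg (Ne.symm hne)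
    set δ := (volume F).toReal with hδ
    set t : ℝ := 2 * K / (c * δ) with ht
    have htpos : 0 < t := by positivity
    set η : ℝ := c * δ / (2 * t) with hη
    have hηpos : 0 < η := by positivity
    have hkey := block_key_w γ ψ w h0 h1 hw0 hw1 hdiv E hopen hE c K hc hcell hsec X F hF η t hηpos htpos
    have h1' : t * η / 2 = c * δ / 4 := by
      rw [hη]
      field_simp
      ring
    have h2' : K / (2 * t) = c * δ / 4 := by
      rw [ht]
      field_simp
      ring
    rw [h1', h2'] at hkey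
    have : 0 < c * δ := by positivity
    linarith
  have hFzero : volume F = 0 := by
    rcases (ENNReal.toReal_eq_zero_iff _).1 hzero with h | h
    · exact h
    · exact absurd h hFfin
  apply measure_mono_null _ hFzero
  rintro x ⟨hx1, hx2⟩
  exact ⟨hx1, ⟨hx2.1.le, hx2.2⟩⟩

end Vale.Agent.Lib.P028H
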