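import Vale.Agent.Lib.P028H.Level
import Vale.Agent.Lib.P028G.Build

/-! From a function essentially non-increasing on its support to a chain of levels, with weights. -/

open scoped BigOperators Real
open Finset MeasureTheory
open Vale.Agent.Lib.P028 Vale.Agent.Lib.P028E Vale.Agent.Lib.P028G

namespace Vale.Agent.Lib.P028H

private theorem continuous_fej_w (K : ℕ) : Continuous (fej K) := by
  unfold fej
  fun_prop

/-- As `P028G.ovl_le_levels`, with `f q ≥ 0` in front of each indicator and each kernel. -/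
theorem ovl_le_levels_w (γ : ℝ) (ψ f : ℕ → ℝ) (hf0 : ∀ q, 0 ≤ f q) (Bk I : Finset ℕ) (K : ℕ → ℕ)
    (S : ℕ → Finset ℕ) (hK : ∀ r ∈ I, 0 < K r) (hdisj : ∀ q ∈ Bk, ∃ r ∈ I, q ∈ S r)
    (hmaj : ∀ r ∈ I, ∀ q ∈ S r, (K r : ℝ) * ψ q ≤ 1 / 8) :
    ∑ q ∈ Bk, ∑ r ∈ Bk, f q * f r * Ovl (fun q => arcSet q γ (ψ q)) q r ≤
      ∫ x in (0 : ℝ)..1,
        (∑ r ∈ I, (3 / (K r : ℝ)) * ∑ q ∈ S r, f q * fej (K r) ((q : ℝ) * x - γ)) ^ 2 := by
  classical
  -- the left side as an integral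
  have hprod : ∀ q r : ℕ, IntervalIntegrable
      (fun x => (f q * ind (arcSet q γ (ψ q)) x) * (f r * ind (arcSet r γ (ψ r)) x)) volume 0 1 := by
    intro q r
    have hm : Measurable
        (fun x => (f q * ind (arcSet q γ (ψ q)) x) * (f r * ind (arcSet r γ (ψ r)) x)) :=
      ((measurable_ind (measurableSet_arcSet _ _ _)).const_mul _).mul
        ((measurable_ind (measurableSet_arcSet _ _ _)).const_mul _)
    refine intervalIntegrable_of_bdd hm (f q * f r) (fun x => ?_) 0 1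
    have h1 := ind_nonneg (arcSet q γ (ψ q)) x
    have h2 := ind_nonneg (arcSet r γ (ψ r)) x
    have h3 := ind_le_one (arcSet q γ (ψ q)) x
    have h4 := ind_le_one (arcSet r γ (ψ r)) x
    rw [abs_of_nonneg (mul_nonneg (mul_nonneg (hf0 q) h1) (mul_nonneg (hf0 r) h2))]
    exact mul_le_mul (mul_le_of_le_one_right (hf0 q) h3) (mul_le_of_le_one_right (hf0 r) h4)
      (mul_nonneg (hf0 r) h2) (hf0 q)
  have hL : ∑ q ∈ Bk, ∑ r ∈ Bk, f q * f r * Ovl (fun q => arcSet q γ (ψ q)) q r =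
      ∫ x in (0 : ℝ)..1, (∑ q ∈ Bk, f q * ind (arcSet q γ (ψ q)) x) ^ 2 := by
    have e1 : ∀ x : ℝ, (∑ q ∈ Bk, f q * ind (arcSet q γ (ψ q)) x) ^ 2 =
        ∑ q ∈ Bk, ∑ r ∈ Bk,
          (f q * ind (arcSet q γ (ψ q)) x) * (f r * ind (arcSet r γ (ψ r)) x) := by
      intro x
      rw [sq, sum_mul_sum]
    simp_rw [e1]
    rw [intervalIntegral.integral_finsetSum]
    · refine sum_congr rfl fun q _ => ?_
      rw [intervalIntegral.integral_finsetSum]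
      · refine sum_congr rfl fun r _ => ?_
        have e2 : (fun x : ℝ => (f q * ind (arcSet q γ (ψ q)) x) * (f r * ind (arcSet r γ (ψ r)) x)) =
            fun x => (f q * f r) * (ind (arcSet q γ (ψ q)) x * ind (arcSet r γ (ψ r)) x) := by
          funext x
          ring
        simp only [e2]
        rw [intervalIntegral.integral_const_mul]
        rfl
      · intro r _
        exact hprod q r
    · intro q _
      have h := IntervalIntegrable.sum Bk (fun r _ => hprod q r)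
      refine h.congr (fun x _ => ?_)
      simp [Finset.sum_apply]
  rw [hL]
  -- the choice of levels
  have hex : ∀ q : ℕ, ∃ r : ℕ, q ∈ Bk → r ∈ I ∧ q ∈ S r := by
    intro q
    by_cases hq : q ∈ Bk
    · obtain ⟨r, hr, hq'⟩ := hdisj q hq
      exact ⟨r, fun _ => ⟨hr, hq'⟩⟩
    · exact ⟨0, fun h => absurd h hq⟩
  choose rr hrr using hex
  -- the pointwise bound
  have hpt : ∀ x : ℝ, ∑ q ∈ Bk, f q * ind (arcSet q γ (ψ q)) x ≤
      ∑ r ∈ I, (3 / (K r : ℝ)) * ∑ q ∈ S r, f q * fej (K r) ((q : ℝ) * x - γ) := by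
    intro x
    have step1 : ∑ q ∈ Bk, f q * ind (arcSet q γ (ψ q)) x ≤
        ∑ q ∈ Bk, (3 / (K (rr q) : ℝ)) * (f q * fej (K (rr q)) ((q : ℝ) * x - γ)) := by
      refine sum_le_sum fun q hq => ?_
      obtain ⟨h1, h2⟩ := hrr q hq
      have h3 := ind_le_fej γ (ψ q) q (K (rr q)) (hK _ h1) (hmaj _ h1 q h2) x
      calc f q * ind (arcSet q γ (ψ q)) x
          ≤ f q * (3 / (K (rr q) : ℝ) * fej (K (rr q)) ((q : ℝ) * x - γ)) :=
            mul_le_mul_of_nonneg_left h3 (hf0 q)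
        _ = (3 / (K (rr q) : ℝ)) * (f q * fej (K (rr q)) ((q : ℝ) * x - γ)) := by ring
    have step2 : ∑ q ∈ Bk, (3 / (K (rr q) : ℝ)) * (f q * fej (K (rr q)) ((q : ℝ) * x - γ)) =
        ∑ r ∈ I, ∑ q ∈ Bk.filter (fun q => rr q = r),
          (3 / (K (rr q) : ℝ)) * (f q * fej (K (rr q)) ((q : ℝ) * x - γ)) :=
      (sum_fiberwise_of_maps_to (fun q hq => (hrr q hq).1) _).symm
    have step3 : ∀ r ∈ I, ∑ q ∈ Bk.filter (fun q => rr q = r),
        (3 / (K (rr q) : ℝ)) * (f q * fej (K (rr q)) ((q : ℝ) * x - γ)) ≤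
        (3 / (K r : ℝ)) * ∑ q ∈ S r, f q * fej (K r) ((q : ℝ) * x - γ) := by
      intro r hr
      have e : ∑ q ∈ Bk.filter (fun q => rr q = r),
          (3 / (K (rr q) : ℝ)) * (f q * fej (K (rr q)) ((q : ℝ) * x - γ)) =
          (3 / (K r : ℝ)) * ∑ q ∈ Bk.filter (fun q => rr q = r),
            f q * fej (K r) ((q : ℝ) * x - γ) := by
        rw [mul_sum]
        refine sum_congr rfl fun q hq => ?_
        rw [(mem_filter.mp hq).2]
      rw [e]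
      refine mul_le_mul_of_nonneg_left ?_ (by positivity)
      refine sum_le_sum_of_subset_of_nonneg ?_
        (fun q _ _ => mul_nonneg (hf0 q) (fej_nonneg _ (hK r hr) _))
      intro q hq
      obtain ⟨h1, h2⟩ := mem_filter.mp hq
      have := (hrr q h1).2
      rwa [h2] at this
    rw [step2] at step1
    exact step1.trans (sum_le_sum step3)
  -- integrate
  have h0' : ∀ x : ℝ, 0 ≤ ∑ q ∈ Bk, f q * ind (arcSet q γ (ψ q)) x :=
    fun x => sum_nonneg fun q _ => mul_nonneg (hf0 q) (ind_nonneg _ _)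
  refine intervalIntegral.integral_mono_on (by norm_num) ?_ ?_ fun x _ => ?_
  · have hm : Measurable (fun x : ℝ => (∑ q ∈ Bk, f q * ind (arcSet q γ (ψ q)) x) ^ 2) :=
      (Finset.measurable_fun_sum _ fun q _ =>
        (measurable_ind (measurableSet_arcSet _ _ _)).const_mul _).pow_const 2
    refine intervalIntegrable_of_bdd hm ((∑ q ∈ Bk, f q) ^ 2) (fun x => ?_) 0 1
    have h1 : ∑ q ∈ Bk, f q * ind (arcSet q γ (ψ q)) x ≤ ∑ q ∈ Bk, f q :=
      sum_le_sum fun q _ => mul_le_of_le_one_right (hf0 q) (ind_le_one _ _)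
    rw [abs_of_nonneg (sq_nonneg _)]
    exact pow_le_pow_left₀ (h0' x) h1 2
  · apply Continuous.intervalIntegrable
    have hf : ∀ r : ℕ, Continuous (fej (K r)) := fun r => continuous_fej_w (K r)
    refine Continuous.pow (continuous_finsetSum _ fun r _ => continuous_const.mul
      (continuous_finsetSum _ fun q _ => continuous_const.mul ((hf r).comp ?_))) 2
    fun_prop
  · exact pow_le_pow_left₀ (h0' x) (hpt x) 2

/-- The arithmetic of the size hypothesis. Let `β = 1/(2-e)`, `c = 1/(1-e)`, `q ≥ Q`, `t ≥ 1`, `1 < 16 K p`,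
`t ^ c * p * q ^ β ≤ 1`. Write `Y = (K : ℝ) ^ (1-e)`. Then:
(a) `t ≤ 4 Y`: `t ^ c ≤ 1/p < 16 K` and raise to the power `1-e` (`16^(1-e) ≤ 4` since `1-e ≤ 1/2`).
(b) `t ^ 2 * Q ≤ 64 * K * Y`: raise `t ^ c * p * q ^ β ≤ 1` to the power `2-e`: `t ^ ((2-e)/(1-e)) * q ≤ p ^ (-(2-e)) ≤ (16 K) ^ (2-e) ≤ 64 K ^ (2-e)`,
and `(2-e)/(1-e) ≥ 2`, `t ≥ 1`, `Q ≤ q`.
(c) `t ^ 2 * p * q ^ (2/3) ≤ 1`, since `c ≥ 2`, `β ≥ 2/3`, `q ≥ 1`. -/
theorem size_arith (e t p : ℝ) (he : 1 / 2 ≤ e) (he1 : e < 1) (ht : 1 ≤ t) (hp : 0 < p) (q Q K : ℕ)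
    (hQ : 0 < Q) (hQq : Q ≤ q) (hKp : 1 < 16 * (K : ℝ) * p)
    (h : t ^ (1 / (1 - e)) * p * (q : ℝ) ^ (1 / (2 - e)) ≤ 1) :
    t ≤ 4 * (K : ℝ) ^ (1 - e) ∧ t ^ 2 * (Q : ℝ) ≤ 64 * K * (K : ℝ) ^ (1 - e) ∧
      t ^ 2 * p * (q : ℝ) ^ ((2 : ℝ) / 3) ≤ 1 := by
  have hq1 : (1 : ℝ) ≤ q := by exact_mod_cast (hQ.trans_le hQq)
  have hq0 : (0 : ℝ) < q := by linarith
  have h1e : 0 < 1 - e := by linarith
  have h1e2 : 1 - e ≤ 1 / 2 := by linarith
  have h2e : 0 < 2 - e := by linarith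
  have h2e2 : 2 - e ≤ 3 / 2 := by linarith
  have hc : 2 ≤ 1 / (1 - e) := by
    rw [le_div_iff₀ h1e]
    linarith
  have hβ1 : (2 : ℝ) / 3 ≤ 1 / (2 - e) := by
    rw [le_div_iff₀ h2e]
    linarith
  have hKpos : (0 : ℝ) < K := by
    by_contra hne
    have hz : (K : ℝ) = 0 := le_antisymm (not_lt.mp hne) (Nat.cast_nonneg K)
    rw [hz] at hKp
    norm_num at hKp
  have ht0 : 0 < t := by linarith
  have htc0 : 0 < t ^ (1 / (1 - e)) := Real.rpow_pos_of_pos ht0 _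
  have hqβ0 : 0 < (q : ℝ) ^ (1 / (2 - e)) := Real.rpow_pos_of_pos hq0 _
  have hqβ : 1 ≤ (q : ℝ) ^ (1 / (2 - e)) := Real.one_le_rpow hq1 (by positivity)
  have hsq : t ^ 2 ≤ t ^ (1 / (1 - e)) := by
    have : t ^ 2 = t ^ ((2 : ℕ) : ℝ) := (Real.rpow_natCast t 2).symm
    rw [this]
    exact Real.rpow_le_rpow_of_exponent_le ht (by exact_mod_cast hc)
  have hA : t ^ (1 / (1 - e)) * p ≤ 1 :=
    (le_mul_of_one_le_right (mul_pos htc0 hp).le hqβ).trans h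
  have ha1 : t ^ (1 / (1 - e)) < 16 * K := by
    have : t ^ (1 / (1 - e)) * p < 16 * K * p := lt_of_le_of_lt hA hKp
    exact lt_of_mul_lt_mul_right this hp.le
  have h16a : (16 : ℝ) ^ (1 - e) ≤ 4 := by
    calc (16 : ℝ) ^ (1 - e) ≤ (16 : ℝ) ^ ((1 : ℝ) / 2) :=
          Real.rpow_le_rpow_of_exponent_le (by norm_num) h1e2
      _ = 4 := by
          rw [show (16 : ℝ) = (4 : ℝ) ^ (2 : ℝ) by norm_num, ← Real.rpow_mul (by norm_num)]
          norm_num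
  have h16b : (16 : ℝ) ^ (2 - e) ≤ 64 := by
    calc (16 : ℝ) ^ (2 - e) ≤ (16 : ℝ) ^ ((3 : ℝ) / 2) :=
          Real.rpow_le_rpow_of_exponent_le (by norm_num) h2e2
      _ = 64 := by
          rw [show (16 : ℝ) = (4 : ℝ) ^ (2 : ℝ) by norm_num, ← Real.rpow_mul (by norm_num)]
          norm_num
  have hKy : (0 : ℝ) < (K : ℝ) ^ (1 - e) := Real.rpow_pos_of_pos hKpos _
  refine ⟨?_, ?_, ?_⟩
  · calc t = (t ^ (1 / (1 - e))) ^ (1 - e) := by
          rw [← Real.rpow_mul ht0.le, one_div, inv_mul_cancel₀ h1e.ne', Real.rpow_one]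
      _ ≤ (16 * (K : ℝ)) ^ (1 - e) := Real.rpow_le_rpow htc0.le ha1.le h1e.le
      _ = (16 : ℝ) ^ (1 - e) * (K : ℝ) ^ (1 - e) := Real.mul_rpow (by norm_num) hKpos.le
      _ ≤ 4 * (K : ℝ) ^ (1 - e) := mul_le_mul_of_nonneg_right h16a hKy.le
  · -- raise to the power `2 - e`
    have hpw : (t ^ (1 / (1 - e)) * p * (q : ℝ) ^ (1 / (2 - e))) ^ (2 - e) ≤ 1 :=
      Real.rpow_le_one (by positivity) h h2e.le
    rw [Real.mul_rpow (mul_pos htc0 hp).le hqβ0.le, Real.mul_rpow htc0.le hp.le,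
      ← Real.rpow_mul ht0.le, ← Real.rpow_mul hq0.le,
      show 1 / (2 - e) * (2 - e) = 1 by field_simp, Real.rpow_one] at hpw
    set T := t ^ (1 / (1 - e) * (2 - e)) with hT
    have hT0 : 0 < T := Real.rpow_pos_of_pos ht0 _
    have hT2 : t ^ 2 ≤ T := by
      have : t ^ 2 = t ^ ((2 : ℕ) : ℝ) := (Real.rpow_natCast t 2).symm
      rw [this, hT]
      refine Real.rpow_le_rpow_of_exponent_le ht ?_
      have : (2 : ℝ) ≤ 1 / (1 - e) * (2 - e) := by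
        rw [one_div, inv_mul_eq_div, le_div_iff₀ h1e]
        linarith
      exact_mod_cast this
    have hpe0 : 0 < p ^ (2 - e) := Real.rpow_pos_of_pos hp _
    have h16K0 : 0 < (16 * (K : ℝ)) ^ (2 - e) := Real.rpow_pos_of_pos (by positivity) _
    have h1le : 1 ≤ p ^ (2 - e) * (16 * (K : ℝ)) ^ (2 - e) := by
      rw [← Real.mul_rpow hp.le (by positivity)]
      refine Real.one_le_rpow ?_ h2e.le
      nlinarith
    have hQq' : (Q : ℝ) ≤ q := by exact_mod_cast hQq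
    have hQ0 : (0 : ℝ) ≤ Q := Nat.cast_nonneg Q
    have hstep : T * q ≤ (16 * (K : ℝ)) ^ (2 - e) := by
      have h5 : T * (q : ℝ) * (p ^ (2 - e) * (16 * (K : ℝ)) ^ (2 - e)) ≤
          (16 * (K : ℝ)) ^ (2 - e) := by
        have h6 : T * (q : ℝ) * (p ^ (2 - e) * (16 * (K : ℝ)) ^ (2 - e)) =
            (T * p ^ (2 - e) * q) * (16 * (K : ℝ)) ^ (2 - e) := by ring
        rw [h6]
        exact mul_le_of_le_one_left h16K0.le hpw
      exact (le_mul_of_one_le_right (mul_pos hT0 hq0).le h1le).trans h5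
    have hKexp : (K : ℝ) ^ (2 - e) = K * (K : ℝ) ^ (1 - e) := by
      rw [show 2 - e = 1 + (1 - e) by ring, Real.rpow_add hKpos, Real.rpow_one]
    calc t ^ 2 * (Q : ℝ) ≤ T * q := mul_le_mul hT2 hQq' hQ0 hT0.le
      _ ≤ (16 * (K : ℝ)) ^ (2 - e) := hstep
      _ = (16 : ℝ) ^ (2 - e) * (K : ℝ) ^ (2 - e) := Real.mul_rpow (by norm_num) hKpos.le
      _ ≤ 64 * (K : ℝ) ^ (2 - e) :=
          mul_le_mul_of_nonneg_right h16b (Real.rpow_pos_of_pos hKpos _).le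
      _ = 64 * K * (K : ℝ) ^ (1 - e) := by rw [hKexp]; ring
  · have h23 : (q : ℝ) ^ ((2 : ℝ) / 3) ≤ (q : ℝ) ^ (1 / (2 - e)) :=
      Real.rpow_le_rpow_of_exponent_le hq1 hβ1
    calc t ^ 2 * p * (q : ℝ) ^ ((2 : ℝ) / 3)
        ≤ t ^ (1 / (1 - e)) * p * (q : ℝ) ^ (1 / (2 - e)) :=
          mul_le_mul (mul_le_mul_of_nonneg_right hsq hp.le) h23
            (Real.rpow_pos_of_pos hq0 _).le (mul_pos htc0 hp).le
      _ ≤ 1 := h

/-- As `P028G.exists_levels`, with the changes: the chain hypothesis only compares different dyadic blocks;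
`hchain2` then gives `rank q ≤ rank q' → j q ≤ j q' ∧ k q ≤ k q'`: if `j q' < j q` then `k q' ≤ k q` and `rank q' < rank q`.
`Z r = min (cube root of Q r) ⌊K r ^ (1-e)⌋₊` (so `1 ≤ Z r`, `Z r ^ 3 ≤ Q r`, `Z r ≤ K r ^ (1-e)`, `K r ^ (1-e) ≤ 2 * ⌊K r ^ (1-e)⌋₊`),
`τ r` is the max of the divisor count on the level. `hsize` with `C9 = 128`: if `Z r` is the cube root use `size_step` and `size_arith` (c) (32 ≤ 128);
otherwise `τ² Q ≤ 64 K K^(1-e) ≤ 128 K Z` by `size_arith` (b). `hzt` with `C10 = 5`: `size_arith` (a).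
Mass: `1 / K r < 16 ψ q` on the level. `ψ q ≤ 1/9` for `q ≥ 27` from (c) of `size_arith` as in `P028G` (apply it after getting an exponent `k`, or directly from `h`). -/
theorem exists_levels_w (ψ f : ℕ → ℝ) (hf0 : ∀ q, 0 ≤ f q) (e : ℝ) (he : 1 / 2 ≤ e) (he1 : e < 1)
    (hfσ : ∀ q, 0 < ψ q → f q * (∑ d ∈ q.divisors, (d : ℝ)) ≤ q)
    (hchain : ∀ q r, 0 < ψ q → 0 < ψ r → Nat.log 2 q < Nat.log 2 r → ψ r ≤ ψ q)
    (hsize : ∀ q, 0 < ψ q → (q.divisors.card : ℝ) ^ (1 / (1 - e)) * ψ q * (q : ℝ) ^ (1 / (2 - e)) ≤ 1)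
    (Bk : Finset ℕ) (hBk : ∀ q ∈ Bk, 27 ≤ q ∧ 0 < ψ q) :
    ∃ (I : Finset ℕ) (Q K Z : ℕ → ℕ) (τ : ℕ → ℝ) (S : ℕ → Finset ℕ),
      LevelDataW f e 128 5 I Q K Z τ S ∧
      (∀ q ∈ Bk, ∃ r ∈ I, q ∈ S r) ∧
      (∀ r ∈ I, ∀ q ∈ S r, (K r : ℝ) * ψ q ≤ 1 / 8) ∧
      ∑ r ∈ I, (∑ q ∈ S r, f q) / K r ≤ 16 * ∑ q ∈ Bk, f q * ψ q := by
  classical
  have hcard1 : ∀ q ∈ Bk, (1 : ℝ) ≤ (q.divisors.card : ℝ) := by
    intro q hq
    have hq0 : q ≠ 0 := by have := (hBk q hq).1; omega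
    have : 0 < q.divisors.card := Finset.card_pos.2 ⟨1, Nat.one_mem_divisors.2 hq0⟩
    exact_mod_cast this
  have hle : ∀ q ∈ Bk, ψ q ≤ 1 / 9 := by
    intro q hq
    obtain ⟨h27, hp⟩ := hBk q hq
    have h1 := hsize q hp
    have hc0 : 0 ≤ 1 / (1 - e) := by
      apply div_nonneg zero_le_one
      linarith
    have h3 : 1 ≤ (q.divisors.card : ℝ) ^ (1 / (1 - e)) := Real.one_le_rpow (hcard1 q hq) hc0
    have h2 : 9 ≤ (q : ℝ) ^ (1 / (2 - e)) := by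
      have h27' := rpow_two_thirds_ge h27
      have hq1 : (1 : ℝ) ≤ q := by
        have : 1 ≤ q := by omega
        exact_mod_cast this
      have h23 : (2 : ℝ) / 3 ≤ 1 / (2 - e) := by
        rw [le_div_iff₀ (by linarith)]
        linarith
      have := Real.rpow_le_rpow_of_exponent_le hq1 h23
      linarith
    have h4 : ψ q * 9 ≤ (q.divisors.card : ℝ) ^ (1 / (1 - e)) * ψ q * (q : ℝ) ^ (1 / (2 - e)) := by
      calc ψ q * 9 ≤ ψ q * (q : ℝ) ^ (1 / (2 - e)) := mul_le_mul_of_nonneg_left h2 hp.le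
        _ = 1 * ψ q * (q : ℝ) ^ (1 / (2 - e)) := by ring
        _ ≤ (q.divisors.card : ℝ) ^ (1 / (1 - e)) * ψ q * (q : ℝ) ^ (1 / (2 - e)) := by
          have h5 : 0 ≤ (q : ℝ) ^ (1 / (2 - e)) := by positivity
          exact mul_le_mul_of_nonneg_right (mul_le_mul_of_nonneg_right h3 hp.le) h5
    linarith
  have hk0 : ∀ q ∈ Bk, ∃ k : ℕ, (1 / 2 : ℝ) ^ (k + 1) < ψ q ∧ ψ q ≤ (1 / 2 : ℝ) ^ k := by
    intro q hq
    exact exists_kk (hBk q hq).2 (by have := hle q hq; linarith)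
  choose! k hk using hk0
  have hk3 : ∀ q ∈ Bk, 3 ≤ k q := by
    intro q hq
    by_contra hc
    have hc' : k q + 1 ≤ 3 := by omega
    have h1 : (1 / 2 : ℝ) ^ 3 ≤ (1 / 2 : ℝ) ^ (k q + 1) :=
      pow_le_pow_of_le_one (by norm_num) (by norm_num) hc'
    have h2 := (hk q hq).1
    have h3 := hle q hq
    norm_num at h1
    linarith
  have hkle : ∀ q ∈ Bk, ∀ q' ∈ Bk, ψ q' ≤ ψ q → k q ≤ k q' := by
    intro q hq q' hq' hqq
    by_contra hc
    have hc' : k q' + 1 ≤ k q := by omega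
    have h1 : (1 / 2 : ℝ) ^ (k q) ≤ (1 / 2 : ℝ) ^ (k q' + 1) :=
      pow_le_pow_of_le_one (by norm_num) (by norm_num) hc'
    have h2 := (hk q' hq').1
    have h3 := (hk q hq).2
    linarith
  obtain ⟨j, hj⟩ : ∃ j : ℕ → ℕ, ∀ q, j q = Nat.log 2 q := ⟨_, fun _ => rfl⟩
  obtain ⟨rank, hrank⟩ : ∃ rank : ℕ → ℕ, ∀ q, rank q = j q + k q := ⟨_, fun _ => rfl⟩
  have hjk : ∀ q ∈ Bk, ∀ q' ∈ Bk, j q < j q' → k q ≤ k q' := by
    intro q hq q' hq' h
    rw [hj, hj] at h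
    exact hkle q hq q' hq' (hchain q q' (hBk q hq).2 (hBk q' hq').2 h)
  have hchain2 : ∀ q ∈ Bk, ∀ q' ∈ Bk, rank q ≤ rank q' → j q ≤ j q' ∧ k q ≤ k q' := by
    intro q hq q' hq' hr
    rw [hrank, hrank] at hr
    rcases lt_trichotomy (j q) (j q') with h | h | h
    · exact ⟨h.le, hjk q hq q' hq' h⟩
    · exact ⟨h.le, by omega⟩
    · have := hjk q' hq' q hq h
      omega
  obtain ⟨I, hI⟩ : ∃ I : Finset ℕ, I = Bk.image rank := ⟨_, rfl⟩
  obtain ⟨S, hS⟩ : ∃ S : ℕ → Finset ℕ, ∀ r q, q ∈ S r ↔ q ∈ Bk ∧ rank q = r :=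
    ⟨fun r => Bk.filter (fun q => rank q = r), fun r q => Finset.mem_filter⟩
  have hIex : ∀ r ∈ I, ∃ q, q ∈ S r := by
    intro r hr
    rw [hI] at hr
    obtain ⟨q, hq, hqr⟩ := Finset.mem_image.1 hr
    exact ⟨q, (hS r q).2 ⟨hq, hqr⟩⟩
  choose! rep hrepS using hIex
  have hrepB : ∀ r ∈ I, rep r ∈ Bk := fun r hr => ((hS r _).1 (hrepS r hr)).1
  have hreprank : ∀ r ∈ I, rank (rep r) = r := fun r hr => ((hS r _).1 (hrepS r hr)).2
  have hSrep : ∀ r ∈ I, ∀ q ∈ S r, j q = j (rep r) ∧ k q = k (rep r) := by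
    intro r hr q hq
    obtain ⟨hqB, hqr⟩ := (hS r q).1 hq
    have h1 := hchain2 q hqB _ (hrepB r hr) (by rw [hqr, hreprank r hr])
    have h2 := hchain2 _ (hrepB r hr) q hqB (by rw [hqr, hreprank r hr])
    omega
  obtain ⟨Q, hQ⟩ : ∃ Q : ℕ → ℕ, ∀ r, Q r = 2 ^ j (rep r) := ⟨_, fun _ => rfl⟩
  obtain ⟨K, hK⟩ : ∃ K : ℕ → ℕ, ∀ r, K r = 2 ^ (k (rep r) - 3) := ⟨_, fun _ => rfl⟩
  have hQpos : ∀ r, 0 < Q r := fun r => by rw [hQ]; positivity
  have hKpos : ∀ r, 0 < K r := fun r => by rw [hK]; positivity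
  obtain ⟨Zc, hZc1, hZc3, hZclt⟩ : ∃ Z : ℕ → ℕ, (∀ r, 1 ≤ Z r) ∧ (∀ r, Z r ^ 3 ≤ Q r) ∧
      (∀ r, Q r < (2 * Z r) ^ 3) := by
    choose Z hZ using fun r => exists_cube_root (Q r) (hQpos r)
    exact ⟨Z, fun r => (hZ r).1, fun r => (hZ r).2.1, fun r => (hZ r).2.2⟩
  have hY1 : ∀ r, (1 : ℝ) ≤ (K r : ℝ) ^ (1 - e) := by
    intro r
    refine Real.one_le_rpow ?_ (by linarith)
    exact_mod_cast hKpos r
  obtain ⟨F, hF⟩ : ∃ F : ℕ → ℕ, ∀ r, F r = ⌊(K r : ℝ) ^ (1 - e)⌋₊ := ⟨_, fun _ => rfl⟩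
  have hF1 : ∀ r, 1 ≤ F r := by
    intro r
    rw [hF]
    apply Nat.le_floor
    simpa using hY1 r
  have hFle : ∀ r, (F r : ℝ) ≤ (K r : ℝ) ^ (1 - e) := by
    intro r
    rw [hF]
    exact Nat.floor_le (by linarith [hY1 r])
  have hYle : ∀ r, (K r : ℝ) ^ (1 - e) ≤ 2 * (F r : ℝ) := by
    intro r
    have h1 : (K r : ℝ) ^ (1 - e) < (F r : ℝ) + 1 := by
      rw [hF]
      exact Nat.lt_floor_add_one _
    have h2 : (1 : ℝ) ≤ F r := by exact_mod_cast hF1 r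
    linarith
  obtain ⟨Z, hZ⟩ : ∃ Z : ℕ → ℕ, ∀ r, Z r = min (Zc r) (F r) := ⟨_, fun _ => rfl⟩
  have hZ1' : ∀ r, 1 ≤ Z r := fun r => by
    rw [hZ]
    exact le_min (hZc1 r) (hF1 r)
  have hZ3' : ∀ r, Z r ^ 3 ≤ Q r := fun r =>
    (Nat.pow_le_pow_left (by rw [hZ]; exact min_le_left _ _) 3).trans (hZc3 r)
  have hZY : ∀ r, (Z r : ℝ) ≤ (K r : ℝ) ^ (1 - e) := fun r => by
    have h1 : Z r ≤ F r := by rw [hZ]; exact min_le_right _ _
    have h2 : (Z r : ℝ) ≤ F r := by exact_mod_cast h1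
    exact h2.trans (hFle r)
  obtain ⟨τ, hτ⟩ : ∃ τ : ℕ → ℕ, ∀ r, τ r = (S r).sup (fun q => q.divisors.card) := ⟨_, fun _ => rfl⟩
  have hrange : ∀ r ∈ I, ∀ q ∈ S r, Q r ≤ q ∧ q < 2 * Q r := by
    intro r hr q hq
    obtain ⟨hqB, -⟩ := (hS r q).1 hq
    have hq0 : q ≠ 0 := by have := (hBk q hqB).1; omega
    have e' := (hSrep r hr q hq).1
    have h1 : 2 ^ j q ≤ q := by rw [hj]; exact Nat.pow_log_le_self 2 hq0
    have h2 : q < 2 ^ (j q + 1) := by rw [hj]; exact Nat.lt_pow_succ_log_self (by norm_num) q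
    rw [hQ, ← e']
    constructor
    · exact h1
    · rw [pow_succ] at h2; omega
  have hchainI : ∀ r ∈ I, ∀ s ∈ I, r ≤ s → j (rep r) ≤ j (rep s) ∧ k (rep r) ≤ k (rep s) := by
    intro r hr s hs hrs
    exact hchain2 _ (hrepB r hr) _ (hrepB s hs) (by rw [hreprank r hr, hreprank s hs]; exact hrs)
  have hKrpos : ∀ r, (0 : ℝ) < (K r : ℝ) := fun r => by exact_mod_cast hKpos r
  have hKpsi : ∀ r ∈ I, ∀ q ∈ S r, 1 < 16 * (K r : ℝ) * ψ q ∧ (K r : ℝ) * ψ q ≤ 1 / 8 := by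
    intro r hr q hq
    obtain ⟨hqB, -⟩ := (hS r q).1 hq
    have e' := (hSrep r hr q hq).2
    have h3 := hk3 q hqB
    obtain ⟨h1, h2⟩ := hk q hqB
    rw [hK, ← e']
    exact kk_step _ _ h3 h1 h2
  -- the value of `τ r` at a point of the level, and the size arithmetic there
  have hmax : ∀ r ∈ I, ∃ q ∈ S r, ((τ r : ℕ) : ℝ) = (q.divisors.card : ℝ) := by
    intro r hr
    obtain ⟨q, hq, hqs⟩ := Finset.exists_mem_eq_sup (S r) ⟨_, hrepS r hr⟩ (fun q => q.divisors.card)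
    exact ⟨q, hq, by rw [hτ, hqs]⟩
  refine ⟨I, Q, K, Z, fun r => (τ r : ℝ), S, ?_, ?_, ?_, ?_⟩
  · refine ⟨fun r _ => hQpos r, fun r _ => hKpos r, fun r _ => hZ1' r, fun r _ => hZ3' r, hrange,
      ?_, ?_, ?_, ?_, ?_, ?_, ?_, ?_⟩
    · intro r _ q hq
      exact hfσ q (hBk q ((hS r q).1 hq).1).2
    · intro r _ q hq
      have : q.divisors.card ≤ (S r).sup (fun q => q.divisors.card) :=
        Finset.le_sup (f := fun q => q.divisors.card) hq
      rw [← hτ] at this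
      exact_mod_cast this
    · intro r hr
      obtain ⟨q, hq, hqe⟩ := hmax r hr
      show (1 : ℝ) ≤ ((τ r : ℕ) : ℝ)
      rw [hqe]
      exact hcard1 q ((hS r q).1 hq).1
    · -- the size condition
      intro r hr
      obtain ⟨q, hq, hqe⟩ := hmax r hr
      obtain ⟨hqB, -⟩ := (hS r q).1 hq
      obtain ⟨h27, hp⟩ := hBk q hqB
      obtain ⟨-, hb, hc⟩ := size_arith e (q.divisors.card : ℝ) (ψ q) he he1 (hcard1 q hqB) hp q (Q r)
        (K r) (hQpos r) (hrange r hr q hq).1 (hKpsi r hr q hq).1 (hsize q hp)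
      show ((τ r : ℕ) : ℝ) ^ 2 * (Q r : ℝ) ≤ 128 * (Z r : ℝ) * (K r : ℝ)
      rw [hqe]
      rcases le_total (Zc r) (F r) with h | h
      · have hZe : Z r = Zc r := by rw [hZ]; exact min_eq_left h
        have h32 := size_step (q.divisors.card : ℝ) (ψ q) (Nat.cast_nonneg _) hp q (Q r) (Zc r) (K r)
          (hQpos r) (hrange r hr q hq).1 (hZc1 r) (hZclt r) (hKpsi r hr q hq).1 hc
        rw [hZe]
        have h0 : (0 : ℝ) ≤ (Zc r : ℝ) * (K r : ℝ) := by positivity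
        nlinarith
      · have hZe : Z r = F r := by rw [hZ]; exact min_eq_right h
        rw [hZe]
        have h0 : (K r : ℝ) * (K r : ℝ) ^ (1 - e) ≤ (K r : ℝ) * (2 * (F r : ℝ)) :=
          mul_le_mul_of_nonneg_left (hYle r) (hKrpos r).le
        nlinarith
    · intro r hr
      obtain ⟨q, hq, hqe⟩ := hmax r hr
      obtain ⟨hqB, -⟩ := (hS r q).1 hq
      obtain ⟨h27, hp⟩ := hBk q hqB
      obtain ⟨ha, -, -⟩ := size_arith e (q.divisors.card : ℝ) (ψ q) he he1 (hcard1 q hqB) hp q (Q r)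
        (K r) (hQpos r) (hrange r hr q hq).1 (hKpsi r hr q hq).1 (hsize q hp)
      show (Z r : ℝ) + ((τ r : ℕ) : ℝ) ≤ 5 * (K r : ℝ) ^ (1 - e)
      rw [hqe]
      have := hZY r
      linarith
    · intro r hr s hs hrs
      rw [hQ, hQ]
      exact Nat.pow_le_pow_right (by norm_num) (hchainI r hr s hs hrs).1
    · intro r hr s hs hrs
      have h1 := (hchainI r hr s hs hrs).2
      rw [hK, hK]
      exact Nat.pow_le_pow_right (by norm_num) (by omega)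
    · intro r hr s hs hrs
      have h1 := hk3 _ (hrepB r hr)
      have h2 := hk3 _ (hrepB s hs)
      have h3 := hreprank r hr
      have h4 := hreprank s hs
      rw [hrank] at h3 h4
      have e' : (s - r) + (j (rep r) + (k (rep r) - 3)) = j (rep s) + (k (rep s) - 3) := by omega
      have hfin : (2 : ℝ) ^ (s - r) * (((Q r : ℕ) : ℝ) * ((K r : ℕ) : ℝ)) =
          ((Q s : ℕ) : ℝ) * ((K s : ℕ) : ℝ) := by
        rw [hQ, hK, hQ, hK]
        push_cast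
        rw [← pow_add, ← pow_add, ← pow_add, e']
      exact hfin.le
  · intro q hq
    refine ⟨rank q, ?_, (hS _ q).2 ⟨hq, rfl⟩⟩
    rw [hI]
    exact Finset.mem_image_of_mem _ hq
  · intro r hr q hq
    exact (hKpsi r hr q hq).2
  · have hfib : ∑ q ∈ Bk, f q * ψ q = ∑ r ∈ I, ∑ q ∈ S r, f q * ψ q := by
      have hS' : ∀ r, S r = Bk.filter (fun q => rank q = r) := by
        intro r
        ext q
        rw [hS, Finset.mem_filter]
      simp_rw [hS']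
      rw [hI]
      rw [Finset.sum_fiberwise_of_maps_to (g := rank) (fun q hq => Finset.mem_image_of_mem _ hq)]
    rw [hfib, Finset.mul_sum]
    apply Finset.sum_le_sum
    intro r hr
    rw [Finset.mul_sum, Finset.sum_div]
    apply Finset.sum_le_sum
    intro q hq
    obtain ⟨hKp, -⟩ := hKpsi r hr q hq
    have hKR := hKrpos r
    rw [div_le_iff₀ hKR]
    have hf := hf0 q
    nlinarith [mul_le_mul_of_nonneg_left hKp.le hf]

end Vale.Agent.Lib.P028H
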