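import Mathlib

/-! The divisor bound. -/

open scoped BigOperators

namespace Vale.Agent.Lib.P028H

/-- `τ(q) ≤ C q ^ ε`. Paper proof: for a prime power, `(a+1) ≤ C₀ (p^a)^ε` where `C₀ = sup_a (a+1) 2^(-a ε)` is finite,
and `(a+1) ≤ (p^a)^ε` if `p ^ ε ≥ 2`. Induction with `Nat.recOnPosPrimePosCoprime` on
`τ(n) ≤ C₀ ^ (number of primes below P dividing n) * n ^ ε`, `P = 2 ^ (1/ε)`, or any other way. -/
theorem divisor_bound (ε : ℝ) (hε : 0 < ε) :
    ∃ C : ℝ, 0 < C ∧ ∀ q : ℕ, 0 < q → (q.divisors.card : ℝ) ≤ C * (q : ℝ) ^ ε := by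
  set x : ℝ := ε * Real.log 2 with hxdef
  have hx : 0 < x := mul_pos hε (Real.log_pos one_lt_two)
  set C₀ : ℝ := max 1 (1 / x) with hC₀def
  have hC₀1 : 1 ≤ C₀ := le_max_left _ _
  have hC₀x : 1 ≤ C₀ * x := by
    have h : 1 / x ≤ C₀ := le_max_right _ _
    calc (1 : ℝ) = (1 / x) * x := by field_simp
      _ ≤ C₀ * x := by gcongr
  have hC₀pos : 0 < C₀ := by linarith
  -- every prime power
  have h1 : ∀ (p a : ℕ), 2 ≤ p → ((a : ℝ) + 1) ≤ C₀ * ((p : ℝ) ^ a) ^ ε := by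
    intro p a hp
    have hp' : (2 : ℝ) ≤ p := by exact_mod_cast hp
    have hlow : 1 + (a : ℝ) * x ≤ ((p : ℝ) ^ a) ^ ε := by
      have h2a : ((2 : ℝ) ^ a) ^ ε ≤ ((p : ℝ) ^ a) ^ ε := by
        apply Real.rpow_le_rpow (by positivity) _ hε.le
        exact pow_le_pow_left₀ (by norm_num) hp' a
      have hexp : ((2 : ℝ) ^ a) ^ ε = Real.exp ((a : ℝ) * x) := by
        rw [← Real.rpow_natCast, ← Real.rpow_mul (by norm_num), Real.rpow_def_of_pos (by norm_num)]
        congr 1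
        rw [hxdef]
        ring
      have h3 : (a : ℝ) * x + 1 ≤ Real.exp ((a : ℝ) * x) := Real.add_one_le_exp _
      linarith
    have ha : (0 : ℝ) ≤ a := by positivity
    calc (a : ℝ) + 1 ≤ C₀ + (a : ℝ) * (C₀ * x) := by nlinarith
      _ = C₀ * (1 + (a : ℝ) * x) := by ring
      _ ≤ C₀ * ((p : ℝ) ^ a) ^ ε := by gcongr
  set P : ℝ := (2 : ℝ) ^ (1 / ε) with hPdef
  have hP0 : 0 < P := by positivity
  -- large primes
  have h2 : ∀ (p a : ℕ), P ≤ p → ((a : ℝ) + 1) ≤ ((p : ℝ) ^ a) ^ ε := by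
    intro p a hp
    have hp0 : (0 : ℝ) ≤ p := by positivity
    have hpe : (2 : ℝ) ≤ (p : ℝ) ^ ε := by
      have : ((2 : ℝ) ^ (1 / ε)) ^ ε = 2 := by
        rw [← Real.rpow_mul (by norm_num)]
        field_simp
        simp
      calc (2 : ℝ) = ((2 : ℝ) ^ (1 / ε)) ^ ε := this.symm
        _ ≤ (p : ℝ) ^ ε := Real.rpow_le_rpow (by positivity) hp hε.le
    have hcomm : ((p : ℝ) ^ a) ^ ε = ((p : ℝ) ^ ε) ^ a := by
      rw [← Real.rpow_natCast, ← Real.rpow_natCast, ← Real.rpow_mul hp0, ← Real.rpow_mul hp0,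
        mul_comm]
    rw [hcomm]
    calc (a : ℝ) + 1 ≤ (2 : ℝ) ^ a := by
          have : a + 1 ≤ 2 ^ a := Nat.lt_two_pow_self
          exact_mod_cast this
      _ ≤ ((p : ℝ) ^ ε) ^ a := pow_le_pow_left₀ (by norm_num) hpe a
  set N : ℕ := ⌈P⌉₊ with hNdef
  refine ⟨C₀ ^ N, by positivity, ?_⟩
  intro q hq
  have hcard : (q.divisors.card : ℝ)
      = ∏ p ∈ q.primeFactors, ((q.factorization p : ℝ) + 1) := by
    rw [Nat.card_divisors hq.ne']
    push_cast
    rfl
  have hq' : (q : ℝ) ^ ε = ∏ p ∈ q.primeFactors, ((p : ℝ) ^ (q.factorization p)) ^ ε := by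
    have hprod : (q : ℝ) = ∏ p ∈ q.primeFactors, (p : ℝ) ^ (q.factorization p) := by
      conv_lhs => rw [← Nat.prod_factorization_pow_eq_self hq.ne']
      rw [Finsupp.prod, Nat.support_factorization]
      push_cast
      rfl
    conv_lhs => rw [hprod]
    rw [Real.finsetProd_rpow]
    intro p _
    positivity
  let g : ℕ → ℝ := fun p => if (p : ℝ) < P then C₀ else 1
  have hstep : ∀ p ∈ q.primeFactors, ((q.factorization p : ℝ) + 1)
      ≤ g p * ((p : ℝ) ^ (q.factorization p)) ^ ε := by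
    intro p hp
    have hprime : p.Prime := Nat.prime_of_mem_primeFactors hp
    by_cases hlt : (p : ℝ) < P
    · simp only [g, if_pos hlt]
      exact h1 p _ hprime.two_le
    · simp only [g, if_neg hlt, one_mul]
      exact h2 p _ (not_lt.mp hlt)
  have hg : ∏ p ∈ q.primeFactors, g p ≤ C₀ ^ N := by
    have hfil : ∏ p ∈ q.primeFactors, g p
        = C₀ ^ (q.primeFactors.filter (fun p : ℕ => (p : ℝ) < P)).card := by
      simp only [g]
      rw [Finset.prod_ite]
      simp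
    rw [hfil]
    apply pow_le_pow_right₀ hC₀1
    have hsub : q.primeFactors.filter (fun p : ℕ => (p : ℝ) < P) ⊆ Finset.range N := by
      intro p hp
      rw [Finset.mem_filter] at hp
      rw [Finset.mem_range]
      have : (p : ℝ) < N := lt_of_lt_of_le hp.2 (Nat.le_ceil P)
      exact_mod_cast this
    simpa using Finset.card_le_card hsub
  rw [hcard, hq']
  calc ∏ p ∈ q.primeFactors, ((q.factorization p : ℝ) + 1)
      ≤ ∏ p ∈ q.primeFactors, (g p * ((p : ℝ) ^ (q.factorization p)) ^ ε) :=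
        Finset.prod_le_prod (fun p _ => by positivity) hstep
    _ = (∏ p ∈ q.primeFactors, g p) * ∏ p ∈ q.primeFactors, ((p : ℝ) ^ (q.factorization p)) ^ ε :=
        Finset.prod_mul_distrib
    _ ≤ C₀ ^ N * ∏ p ∈ q.primeFactors, ((p : ℝ) ^ (q.factorization p)) ^ ε := by
        apply mul_le_mul_of_nonneg_right hg
        exact Finset.prod_nonneg (fun p _ => by positivity)

end Vale.Agent.Lib.P028H
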