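import Vale.Agent.Lib.P028G.Defs

/-! Duality for the large sieve, with weights. -/

open scoped BigOperators ComplexConjugate

namespace Vale.Agent.Lib.P028H

open Vale.Agent.Lib.P028G

/-- Same proof as `P028G.dual_ls`: now `a_i = ∑_{q ∈ S} f q * v i q`, and the Cauchy-Schwarz step gives
`(∑ ‖a‖²)² ≤ (∑_{q ∈ S} f q ^ 2) * ∑_{q ∈ X} W q * ‖u q‖²`. -/
theorem dual_w {ι : Type*} (Λ : Finset ι) (X S : Finset ℕ) (W : ℕ → ℝ) (hW : ∀ q, 0 ≤ W q)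
    (v : ι → ℕ → ℂ) (f : ℕ → ℝ) (hSX : S ⊆ X) (hS1 : ∀ q ∈ S, 1 ≤ W q) (R : ℝ) (hR : 0 ≤ R)
    (hrow : ∀ a ∈ Λ, ∑ b ∈ Λ, ‖∑ q ∈ X, ((W q : ℝ) : ℂ) * (v a q * conj (v b q))‖ ≤ R) :
    ∑ a ∈ Λ, ‖∑ q ∈ S, ((f q : ℝ) : ℂ) * v a q‖ ^ 2 ≤ (∑ q ∈ S, f q ^ 2) * R := by
  classical
  set a : ι → ℂ := fun i => ∑ q ∈ S, ((f q : ℝ) : ℂ) * v i q with ha
  set u : ℕ → ℂ := fun q => ∑ i ∈ Λ, conj (a i) * v i q with hu
  set A : ℝ := ∑ i ∈ Λ, ‖a i‖ ^ 2 with hAdef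
  set F : ℝ := ∑ q ∈ S, f q ^ 2 with hF
  have hF0 : 0 ≤ F := Finset.sum_nonneg fun _ _ => by positivity
  have hA0 : 0 ≤ A := Finset.sum_nonneg fun _ _ => by positivity
  set G : ι → ι → ℂ := fun i j => ∑ q ∈ X, ((W q : ℝ) : ℂ) * (v i q * conj (v j q)) with hG
  have hGsymm : ∀ i j, ‖G i j‖ = ‖G j i‖ := by
    intro i j
    have hc : G j i = conj (G i j) := by
      simp only [hG, map_sum, map_mul, Complex.conj_conj, Complex.conj_ofReal]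
      refine Finset.sum_congr rfl fun q _ => by ring
    rw [hc, Complex.norm_conj]
  have hAu : ((A : ℝ) : ℂ) = ∑ q ∈ S, ((f q : ℝ) : ℂ) * u q := by
    have h1 : ∀ i, ((‖a i‖ ^ 2 : ℝ) : ℂ) = ∑ q ∈ S, ((f q : ℝ) : ℂ) * (conj (a i) * v i q) := by
      intro i
      have e : ∑ q ∈ S, ((f q : ℝ) : ℂ) * (conj (a i) * v i q) = conj (a i) * a i := by
        rw [ha]
        simp only
        rw [Finset.mul_sum]
        refine Finset.sum_congr rfl fun q _ => by ring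
      rw [e]
      push_cast
      rw [← Complex.conj_mul']
    simp only [hAdef, hu, Finset.mul_sum]
    rw [Finset.sum_comm]
    push_cast at h1 ⊢
    exact Finset.sum_congr rfl fun i _ => h1 i
  have h1 : A ≤ ∑ q ∈ S, |f q| * ‖u q‖ := by
    have hn : ‖((A : ℝ) : ℂ)‖ = A := by rw [Complex.norm_real, Real.norm_of_nonneg hA0]
    rw [← hn, hAu]
    refine (norm_sum_le _ _).trans (le_of_eq ?_)
    refine Finset.sum_congr rfl fun q _ => ?_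
    rw [norm_mul, Complex.norm_real, Real.norm_eq_abs]
  have h2 : (∑ q ∈ S, |f q| * ‖u q‖) ^ 2 ≤ F * ∑ q ∈ S, ‖u q‖ ^ 2 := by
    have h := Finset.sum_mul_sq_le_sq_mul_sq S (fun q => |f q|) (fun q => ‖u q‖)
    simpa [hF, sq_abs] using h
  have h3 : ∑ q ∈ S, ‖u q‖ ^ 2 ≤ ∑ q ∈ X, W q * ‖u q‖ ^ 2 := by
    calc ∑ q ∈ S, ‖u q‖ ^ 2 ≤ ∑ q ∈ S, W q * ‖u q‖ ^ 2 :=
          Finset.sum_le_sum fun q hq => by
            have := hS1 q hq
            nlinarith [sq_nonneg ‖u q‖]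
      _ ≤ _ := Finset.sum_le_sum_of_subset_of_nonneg hSX
          fun q _ _ => mul_nonneg (hW q) (sq_nonneg _)
  have h4 : ∑ q ∈ X, W q * ‖u q‖ ^ 2 ≤ R * A := by
    have hsq : ∀ q, ((‖u q‖ ^ 2 : ℝ) : ℂ) =
        ∑ i ∈ Λ, ∑ j ∈ Λ, conj (a i) * a j * (v i q * conj (v j q)) := by
      intro q
      push_cast
      rw [← Complex.mul_conj']
      simp only [hu, map_sum, map_mul, Complex.conj_conj]
      rw [Finset.sum_mul_sum]
      refine Finset.sum_congr rfl fun i _ => Finset.sum_congr rfl fun j _ => by ring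
    have hexp : ((∑ q ∈ X, W q * ‖u q‖ ^ 2 : ℝ) : ℂ) =
        ∑ i ∈ Λ, ∑ j ∈ Λ, conj (a i) * a j * G i j := by
      rw [Complex.ofReal_sum]
      simp only [Complex.ofReal_mul, hsq, hG, Finset.mul_sum]
      rw [Finset.sum_comm]
      refine Finset.sum_congr rfl fun i _ => ?_
      rw [Finset.sum_comm]
      refine Finset.sum_congr rfl fun j _ => Finset.sum_congr rfl fun q _ => by ring
    have hB0 : 0 ≤ ∑ q ∈ X, W q * ‖u q‖ ^ 2 :=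
      Finset.sum_nonneg fun q _ => mul_nonneg (hW q) (sq_nonneg _)
    have hn : ‖((∑ q ∈ X, W q * ‖u q‖ ^ 2 : ℝ) : ℂ)‖ = ∑ q ∈ X, W q * ‖u q‖ ^ 2 := by
      rw [Complex.norm_real, Real.norm_of_nonneg hB0]
    rw [← hn, hexp]
    have hterm : ∀ i j, ‖conj (a i) * a j * G i j‖ ≤
        (‖a i‖ ^ 2 * ‖G i j‖ + ‖a j‖ ^ 2 * ‖G j i‖) / 2 := by
      intro i j
      rw [norm_mul, norm_mul, Complex.norm_conj, hGsymm j i]
      have hg := norm_nonneg (G i j)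
      nlinarith [mul_nonneg hg (sq_nonneg (‖a i‖ - ‖a j‖))]
    calc ‖∑ i ∈ Λ, ∑ j ∈ Λ, conj (a i) * a j * G i j‖
        ≤ ∑ i ∈ Λ, ∑ j ∈ Λ, ‖conj (a i) * a j * G i j‖ :=
          (norm_sum_le _ _).trans (Finset.sum_le_sum fun i _ => norm_sum_le _ _)
      _ ≤ ∑ i ∈ Λ, ∑ j ∈ Λ, (‖a i‖ ^ 2 * ‖G i j‖ + ‖a j‖ ^ 2 * ‖G j i‖) / 2 :=
          Finset.sum_le_sum fun i _ => Finset.sum_le_sum fun j _ => hterm i j
      _ = ∑ i ∈ Λ, ‖a i‖ ^ 2 * ∑ j ∈ Λ, ‖G i j‖ := by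
          have e : ∑ i ∈ Λ, ∑ j ∈ Λ, ‖a j‖ ^ 2 * ‖G j i‖ = ∑ i ∈ Λ, ∑ j ∈ Λ, ‖a i‖ ^ 2 * ‖G i j‖ :=
            Finset.sum_comm
          simp only [add_div, Finset.sum_add_distrib, ← Finset.sum_div, e, Finset.mul_sum]
          ring
      _ ≤ ∑ i ∈ Λ, ‖a i‖ ^ 2 * R :=
          Finset.sum_le_sum fun i hi => mul_le_mul_of_nonneg_left (hrow i hi) (by positivity)
      _ = R * A := by
          rw [hAdef, Finset.mul_sum]
          exact Finset.sum_congr rfl fun i _ => mul_comm _ _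
  have h5 : A ^ 2 ≤ F * R * A := by
    calc A ^ 2 ≤ (∑ q ∈ S, |f q| * ‖u q‖) ^ 2 := by
          exact pow_le_pow_left₀ hA0 h1 2
      _ ≤ F * ∑ q ∈ S, ‖u q‖ ^ 2 := h2
      _ ≤ F * (R * A) := mul_le_mul_of_nonneg_left (h3.trans h4) hF0
      _ = F * R * A := by ring
  rcases hA0.eq_or_lt with h0 | h0
  · change A ≤ _
    rw [← h0]
    exact mul_nonneg hF0 hR
  · change A ≤ _
    have : A * A ≤ (F * R) * A := by nlinarith
    exact le_of_mul_le_mul_right this h0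

end Vale.Agent.Lib.P028H
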