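import Vale.Agent.Lib.P028H.PerDen
import Vale.Agent.Lib.P028H.Dual

/-! The two families of rationals, with weights. -/

open scoped BigOperators ComplexConjugate
open Finset
open Vale.Agent.Lib.P028G

namespace Vale.Agent.Lib.P028H

/-- The weighted sum attached to `ρ`. -/
noncomputable def coefW (γ K : ℝ) (S : Finset ℕ) (f : ℕ → ℝ) (ρ : ℚ) : ℂ :=
  ∑ q ∈ S, ((f q : ℝ) : ℂ) * vec γ K ρ q

/-- As `P028G.coef_dual`, from `dual_w`. -/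
theorem coefW_dual (γ K : ℝ) (Q : ℕ) (hQ : 0 < Q) (S : Finset ℕ) (hS : ∀ q ∈ S, Q ≤ q ∧ q < 2 * Q)
    (f : ℕ → ℝ) (Λ : Finset ℚ) (R : ℝ) (hR : 0 ≤ R)
    (hrow : ∀ ρ ∈ Λ, ∑ ρ' ∈ Λ, ‖gram γ K Q ρ ρ'‖ ≤ R) :
    ∑ ρ ∈ Λ, ‖coefW γ K S f ρ‖ ^ 2 ≤ (∑ q ∈ S, f q ^ 2) * R := by
  have hQ' : (0 : ℝ) < Q := by exact_mod_cast hQ
  refine dual_w Λ (range (3 * Q + 1)) S (fun q => wt Q q)
    (fun q => wt_nonneg hQ' (Nat.cast_nonneg q)) (vec γ K) f ?_ ?_ R hR ?_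
  · intro q hq
    have := (hS q hq).2
    exact mem_range.2 (by omega)
  · intro q hq
    have h := hS q hq
    have h1 : (Q : ℝ) ≤ q := by exact_mod_cast h.1
    have h2 : (q : ℝ) ≤ 2 * Q := by exact_mod_cast h.2.le
    exact (wt_eq_one hQ' h1 h2).ge
  · intro a ha
    exact hrow a ha

/-- As `P028G.fam_A`. Row sum: diagonal at most `3 Q y` (`gram_diag`), off diagonal by `per_den_H` for each
`d' ≤ Z`: `lcm(d,d') ≤ Z d'`, `∑_{d' ≤ Z} d' ≤ Z²`, `Z³ ≤ Q`, so the row is at most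
`3 y Q + 16 C (y Q + Z (y Q)^e)`. -/
theorem fam_A_H (γ K y C e : ℝ) (Q Z : ℕ) (hQ : 0 < Q) (hC : 0 ≤ C) (he : 0 < e) (hR : RowBd γ C e)
    (hnz : ∀ n : ℕ, 0 < n → 0 < nrm ((n : ℝ) * γ))
    (hK : 0 < K) (hy : 0 < y) (hyK : y ≤ K / Q) (hZ : Z ^ 3 ≤ Q) (S : Finset ℕ)
    (hS : ∀ q ∈ S, Q ≤ q ∧ q < 2 * Q) (f : ℕ → ℝ) (Λ : Finset ℚ)
    (hΛ : ∀ ρ ∈ Λ, 0 < ρ ∧ (ρ : ℝ) < y ∧ ρ.den ≤ Z) :
    ∑ ρ ∈ Λ, ‖coefW γ K S f ρ‖ ^ 2 ≤
      (∑ q ∈ S, f q ^ 2) * ((3 + 16 * C) * y * Q + 16 * C * Z * (y * Q) ^ e) := by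
  classical
  have hQ' : (0 : ℝ) < Q := by exact_mod_cast hQ
  have hZ' : (0 : ℝ) ≤ Z := Nat.cast_nonneg _
  have hyQ : 0 ≤ y * (Q : ℝ) := by positivity
  have hpow : 0 ≤ (y * (Q : ℝ)) ^ e := Real.rpow_nonneg hyQ e
  have h16 : 0 ≤ 16 * C := by linarith
  have hRR : 0 ≤ (3 + 16 * C) * y * Q + 16 * C * Z * (y * Q) ^ e :=
    add_nonneg (mul_nonneg (mul_nonneg (by linarith) hy.le) hQ'.le)
      (mul_nonneg (mul_nonneg h16 hZ') hpow)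
  refine coefW_dual γ K Q hQ S hS f Λ _ hRR ?_
  intro ρ hρ
  obtain ⟨hρ0, hρy, hρZ⟩ := hΛ ρ hρ
  have hsplit : ∑ ρ' ∈ Λ, ‖gram γ K Q ρ ρ'‖ =
      ‖gram γ K Q ρ ρ‖ + ∑ ρ' ∈ Λ.filter (· ≠ ρ), ‖gram γ K Q ρ ρ'‖ := by
    rw [Finset.filter_ne']
    exact (Finset.add_sum_erase Λ (fun ρ' => ‖gram γ K Q ρ ρ'‖) hρ).symm
  have hdiag : ‖gram γ K Q ρ ρ‖ ≤ 3 * (Q : ℝ) * y := by
    refine (gram_diag γ K y Q hQ hK ρ hρ0 hρy).trans ?_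
    exact mul_le_mul_of_nonneg_left (min_le_left _ _) (by positivity)
  have hfib : ∑ ρ' ∈ Λ.filter (· ≠ ρ), ‖gram γ K Q ρ ρ'‖ =
      ∑ d' ∈ Finset.Icc 1 Z, ∑ ρ' ∈ (Λ.filter (· ≠ ρ)).filter (fun r => r.den = d'),
        ‖gram γ K Q ρ ρ'‖ := by
    refine (Finset.sum_fiberwise_of_maps_to (s := Λ.filter (· ≠ ρ)) (t := Finset.Icc 1 Z)
      (g := fun r : ℚ => r.den) ?_ _).symm
    intro r hr
    have hr' := (Finset.mem_filter.1 hr).1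
    exact Finset.mem_Icc.2 ⟨r.den_pos, (hΛ r hr').2.2⟩
  have hone : ∀ d' ∈ Finset.Icc 1 Z,
      ∑ ρ' ∈ (Λ.filter (· ≠ ρ)).filter (fun r => r.den = d'), ‖gram γ K Q ρ ρ'‖ ≤
        16 * C * (y * ((Z : ℝ) * Z) + (y * (Q : ℝ)) ^ e) := by
    intro d' hd'
    have hd'Z : d' ≤ Z := (Finset.mem_Icc.1 hd').2
    have hset : (Λ.filter (· ≠ ρ)).filter (fun r => r.den = d') =
        (Λ.filter (fun r => r.den = d')).filter (· ≠ ρ) := by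
      rw [Finset.filter_comm]
    rw [hset]
    have h1 := per_den_H γ K y C e Q hQ hC he hR hnz hK hy hyK ρ hρ0 hρy d'
      (Λ.filter (fun r => r.den = d'))
      (fun r hr => by
        obtain ⟨h1, h2⟩ := Finset.mem_filter.1 hr
        exact ⟨(hΛ r h1).1, (hΛ r h1).2.1, h2⟩)
    refine h1.trans ?_
    have hl : ((Nat.lcm ρ.den d' : ℕ) : ℝ) ≤ (Z : ℝ) * Z := by
      have hl1 : Nat.lcm ρ.den d' ≤ ρ.den * d' := by
        refine Nat.le_of_dvd (Nat.mul_pos ρ.den_pos (Finset.mem_Icc.1 hd').1) ?_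
        exact Nat.lcm_dvd_mul _ _
      have hl2 : ρ.den * d' ≤ Z * Z := Nat.mul_le_mul hρZ hd'Z
      exact_mod_cast hl1.trans hl2
    exact mul_le_mul_of_nonneg_left
      (add_le_add_left (mul_le_mul_of_nonneg_left hl hy.le) _) h16
  have hoff : ∑ ρ' ∈ Λ.filter (· ≠ ρ), ‖gram γ K Q ρ ρ'‖ ≤
      16 * C * y * Q + 16 * C * Z * (y * (Q : ℝ)) ^ e := by
    rw [hfib]
    have h1 := Finset.sum_le_card_nsmul (Finset.Icc 1 Z) _ _ hone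
    refine h1.trans ?_
    rw [Nat.card_Icc, Nat.add_sub_cancel, nsmul_eq_mul]
    have hZQ : (Z : ℝ) ^ 3 ≤ Q := by exact_mod_cast hZ
    have e1 : (Z : ℝ) * (16 * C * (y * ((Z : ℝ) * Z) + (y * (Q : ℝ)) ^ e)) =
        16 * C * y * (Z : ℝ) ^ 3 + 16 * C * Z * (y * (Q : ℝ)) ^ e := by ring
    rw [e1]
    have h2 := mul_le_mul_of_nonneg_left hZQ (mul_nonneg h16 hy.le)
    linarith
  rw [hsplit]
  have e2 : (3 + 16 * C) * y * (Q : ℝ) + 16 * C * Z * (y * (Q : ℝ)) ^ e =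
      3 * (Q : ℝ) * y + (16 * C * y * Q + 16 * C * Z * (y * (Q : ℝ)) ^ e) := by ring
  rw [e2]
  linarith

/-- As `P028G.fam_line`: only multiples of `d` contribute to `coefW`; row `3 Q min(y,1/d) + 16 C (y d + (y Q)^e)`. -/
theorem fam_line_H (γ K y C e : ℝ) (Q d : ℕ) (hQ : 0 < Q) (hC : 0 ≤ C) (he : 0 < e) (hR : RowBd γ C e)
    (hnz : ∀ n : ℕ, 0 < n → 0 < nrm ((n : ℝ) * γ))
    (hK : 0 < K) (hy : 0 < y) (hyK : y ≤ K / Q) (S : Finset ℕ)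
    (hS : ∀ q ∈ S, Q ≤ q ∧ q < 2 * Q) (f : ℕ → ℝ) (Λ : Finset ℚ)
    (hΛ : ∀ ρ ∈ Λ, 0 < ρ ∧ (ρ : ℝ) < y ∧ ρ.den = d) :
    ∑ ρ ∈ Λ, ‖coefW γ K S f ρ‖ ^ 2 ≤
      (∑ q ∈ S.filter (d ∣ ·), f q ^ 2) *
        (3 * (Q : ℝ) * min y (1 / (d : ℝ)) + 16 * C * (y * d + (y * Q) ^ e)) := by
  classical
  have hQ' : (0 : ℝ) < Q := by exact_mod_cast hQ
  have hcoef : ∀ ρ ∈ Λ, coefW γ K S f ρ = coefW γ K (S.filter (d ∣ ·)) f ρ := by
    intro ρ hρ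
    unfold coefW
    rw [sum_filter]
    refine sum_congr rfl fun q _ => ?_
    by_cases h : d ∣ q
    · rw [if_pos h]
    · rw [if_neg h]
      unfold vec
      rw [if_neg (by rw [(hΛ ρ hρ).2.2]; exact h), mul_zero]
  have hmin : 0 ≤ min y (1 / (d : ℝ)) := le_min hy.le (by positivity)
  have hRR : 0 ≤ 3 * (Q : ℝ) * min y (1 / (d : ℝ)) + 16 * C * (y * d + (y * Q) ^ e) := by
    have h1 : 0 ≤ (y * Q) ^ e := Real.rpow_nonneg (by positivity) e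
    have h2 : 0 ≤ y * (d : ℝ) := by positivity
    have h3 : 0 ≤ C * (y * d + (y * Q) ^ e) := mul_nonneg hC (by linarith)
    have h4 : 0 ≤ 3 * (Q : ℝ) * min y (1 / (d : ℝ)) := by positivity
    nlinarith
  have h := coefW_dual γ K Q hQ (S.filter (d ∣ ·))
    (fun q hq => hS q (mem_filter.1 hq).1) f Λ _ hRR ?_
  · rw [sum_congr rfl fun ρ hρ => by rw [hcoef ρ hρ]]
    exact h
  · intro ρ hρ
    obtain ⟨hρ0, hρy, hρd⟩ := hΛ ρ hρ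
    rw [← sum_filter_add_sum_filter_not Λ (fun ρ' => ρ' = ρ)]
    have hfil : Λ.filter (fun ρ' => ρ' = ρ) = {ρ} := by
      ext x
      simp only [mem_filter, mem_singleton]
      constructor
      · exact fun h => h.2
      · rintro rfl
        exact ⟨hρ, rfl⟩
    rw [hfil, sum_singleton]
    have h1 := gram_diag γ K y Q hQ hK ρ hρ0 hρy
    have h2 := per_den_H γ K y C e Q hQ hC he hR hnz hK hy hyK ρ hρ0 hρy d Λ hΛ
    rw [hρd] at h1 h2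
    rw [Nat.lcm_self] at h2
    have h3 : ∑ ρ' ∈ Λ.filter (fun ρ' => ¬ ρ' = ρ), ‖gram γ K Q ρ ρ'‖
        = ∑ ρ' ∈ Λ.filter (· ≠ ρ), ‖gram γ K Q ρ ρ'‖ := rfl
    rw [h3]
    exact add_le_add h1 h2

/-- As `P028G.fam_B`: sum `fam_line_H` over `d`, exchange with the sum over `q ∈ S`. For each `q`, over divisors `d > Z`:
`∑ 3 Q min(y,1/d) ≤ 3 τ Q min(y,1/Z)`, `∑ 16 C (y Q)^e ≤ 16 C τ (y Q)^e`, and `∑ 16 C y d ≤ 16 C y σ(q)`,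
with `f q ^ 2 * σ(q) ≤ f q * q ≤ 2 Q f q` (from `hfσ`, `f q ≥ 0`, `q < 2Q`) and `f q ^ 2 ≤ f q`. -/
theorem fam_B_H (γ K y C e τ : ℝ) (Q Z : ℕ) (hQ : 0 < Q) (hZ1 : 1 ≤ Z) (hC : 0 ≤ C) (he : 0 < e)
    (hR : RowBd γ C e) (hnz : ∀ n : ℕ, 0 < n → 0 < nrm ((n : ℝ) * γ))
    (hK : 0 < K) (hy : 0 < y) (hyK : y ≤ K / Q) (hτ0 : 0 ≤ τ) (S : Finset ℕ)
    (hS : ∀ q ∈ S, Q ≤ q ∧ q < 2 * Q) (f : ℕ → ℝ) (hf0 : ∀ q, 0 ≤ f q) (hf1 : ∀ q, f q ≤ 1)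
    (hfσ : ∀ q ∈ S, f q * (∑ d ∈ q.divisors, (d : ℝ)) ≤ q)
    (hτ : ∀ q ∈ S, (q.divisors.card : ℝ) ≤ τ) (Λ : Finset ℚ)
    (hΛ : ∀ ρ ∈ Λ, 0 < ρ ∧ (ρ : ℝ) < y ∧ Z < ρ.den) :
    ∑ ρ ∈ Λ, ‖coefW γ K S f ρ‖ ^ 2 ≤ (∑ q ∈ S, f q) *
      (3 * τ * Q * min y (1 / (Z : ℝ)) + 16 * C * τ * (y * Q) ^ e + 32 * C * y * Q) := by
  classical
  set m : ℝ := min y (1 / (Z : ℝ)) with hm
  set E : ℝ := (y * Q) ^ e with hE
  have hZ0 : (0 : ℝ) < Z := by exact_mod_cast hZ1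
  have hm0 : 0 ≤ m := le_min hy.le (by positivity)
  have hQ' : (0 : ℝ) < Q := by exact_mod_cast hQ
  have hE0 : 0 ≤ E := Real.rpow_nonneg (by positivity) _
  set D : Finset ℕ := Λ.image (fun ρ => ρ.den) with hD
  have hsplit : ∑ ρ ∈ Λ, ‖coefW γ K S f ρ‖ ^ 2 =
      ∑ d ∈ D, ∑ ρ ∈ Λ.filter (fun ρ => ρ.den = d), ‖coefW γ K S f ρ‖ ^ 2 :=
    (Finset.sum_fiberwise_of_maps_to (fun ρ hρ => mem_image_of_mem _ hρ) _).symm
  have hDZ : ∀ d ∈ D, Z < d := by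
    intro d hd
    obtain ⟨ρ, hρ, rfl⟩ := mem_image.1 hd
    exact (hΛ ρ hρ).2.2
  have hline : ∀ d ∈ D, ∑ ρ ∈ Λ.filter (fun ρ => ρ.den = d), ‖coefW γ K S f ρ‖ ^ 2 ≤
      (∑ q ∈ S.filter (d ∣ ·), f q ^ 2) * (3 * (Q : ℝ) * m + 16 * C * (y * d + E)) := by
    intro d hd
    have h := fam_line_H γ K y C e Q d hQ hC he hR hnz hK hy hyK S hS f
      (Λ.filter (fun ρ => ρ.den = d))
      (fun ρ hρ => by
        obtain ⟨h1, h2⟩ := mem_filter.1 hρ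
        exact ⟨(hΛ ρ h1).1, (hΛ ρ h1).2.1, h2⟩)
    refine h.trans (mul_le_mul_of_nonneg_left ?_ (Finset.sum_nonneg fun _ _ => by positivity))
    have hd' : (Z : ℝ) ≤ d := by exact_mod_cast (hDZ d hd).le
    have h1 : min y (1 / (d : ℝ)) ≤ m := by
      refine min_le_min le_rfl ?_
      exact one_div_le_one_div_of_le hZ0 hd'
    have h2 : 3 * (Q : ℝ) * min y (1 / (d : ℝ)) ≤ 3 * (Q : ℝ) * m :=
      mul_le_mul_of_nonneg_left h1 (by positivity)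
    linarith
  rw [hsplit]
  calc ∑ d ∈ D, ∑ ρ ∈ Λ.filter (fun ρ => ρ.den = d), ‖coefW γ K S f ρ‖ ^ 2
      ≤ ∑ d ∈ D, (∑ q ∈ S.filter (d ∣ ·), f q ^ 2) * (3 * (Q : ℝ) * m + 16 * C * (y * d + E)) :=
        Finset.sum_le_sum hline
    _ = ∑ d ∈ D, ∑ q ∈ S, if d ∣ q then f q ^ 2 * (3 * (Q : ℝ) * m + 16 * C * (y * d + E)) else 0 := by
        refine Finset.sum_congr rfl fun d _ => ?_
        rw [← Finset.sum_filter, Finset.sum_mul]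
    _ = ∑ q ∈ S, ∑ d ∈ D, if d ∣ q then f q ^ 2 * (3 * (Q : ℝ) * m + 16 * C * (y * d + E)) else 0 :=
        Finset.sum_comm
    _ ≤ ∑ q ∈ S, f q * (3 * τ * Q * m + 16 * C * τ * E + 32 * C * y * Q) := by
        refine Finset.sum_le_sum fun q hq => ?_
        obtain ⟨hq1, hq2⟩ := hS q hq
        have hq0 : q ≠ 0 := by omega
        have hterm : ∀ d : ℕ, 0 ≤ f q ^ 2 * (3 * (Q : ℝ) * m + 16 * C * (y * d + E)) := fun d => by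
          positivity
        rw [← Finset.sum_filter]
        have hsub : D.filter (· ∣ q) ⊆ q.divisors := by
          intro d hd
          exact Nat.mem_divisors.2 ⟨(mem_filter.1 hd).2, hq0⟩
        have hf0q := hf0 q
        have hf1q := hf1 q
        have hff : f q ^ 2 ≤ f q := by nlinarith
        have hA : 0 ≤ 3 * (Q : ℝ) * m + 16 * C * E := by positivity
        have hqQ : (q : ℝ) ≤ 2 * Q := by
          have : (q : ℝ) ≤ ((2 * Q : ℕ) : ℝ) := by exact_mod_cast hq2.le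
          simpa using this
        have hyC : 0 ≤ 16 * C * y := by positivity
        calc ∑ d ∈ D.filter (· ∣ q), f q ^ 2 * (3 * (Q : ℝ) * m + 16 * C * (y * d + E))
            ≤ ∑ d ∈ q.divisors, f q ^ 2 * (3 * (Q : ℝ) * m + 16 * C * (y * d + E)) :=
              Finset.sum_le_sum_of_subset_of_nonneg hsub fun d _ _ => hterm d
          _ = f q ^ 2 * ((q.divisors.card : ℝ) * (3 * (Q : ℝ) * m + 16 * C * E)) +
                f q * ((16 * C * y) * (f q * ∑ d ∈ q.divisors, (d : ℝ))) := by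
              have e1 : ∀ d ∈ q.divisors, f q ^ 2 * (3 * (Q : ℝ) * m + 16 * C * (y * d + E)) =
                  f q ^ 2 * (3 * (Q : ℝ) * m + 16 * C * E) + f q ^ 2 * (16 * C * y) * (d : ℝ) :=
                fun d _ => by ring
              rw [Finset.sum_congr rfl e1, Finset.sum_add_distrib, Finset.sum_const, nsmul_eq_mul,
                ← Finset.mul_sum]
              ring
          _ ≤ f q * (τ * (3 * (Q : ℝ) * m + 16 * C * E)) + f q * ((16 * C * y) * (2 * Q)) := by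
              refine add_le_add ?_ (mul_le_mul_of_nonneg_left
                (mul_le_mul_of_nonneg_left ((hfσ q hq).trans hqQ) hyC) hf0q)
              have h1 : (q.divisors.card : ℝ) * (3 * (Q : ℝ) * m + 16 * C * E) ≤
                  τ * (3 * (Q : ℝ) * m + 16 * C * E) :=
                mul_le_mul_of_nonneg_right (hτ q hq) hA
              have h2 : 0 ≤ τ * (3 * (Q : ℝ) * m + 16 * C * E) := by positivity
              have h0 : 0 ≤ (q.divisors.card : ℝ) * (3 * (Q : ℝ) * m + 16 * C * E) := by positivity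
              calc _ ≤ f q ^ 2 * (τ * (3 * (Q : ℝ) * m + 16 * C * E)) :=
                    mul_le_mul_of_nonneg_left h1 (by positivity)
                _ ≤ _ := mul_le_mul_of_nonneg_right hff h2
          _ = f q * (3 * τ * Q * m + 16 * C * τ * E + 32 * C * y * Q) := by ring
    _ = (∑ q ∈ S, f q) * (3 * τ * Q * m + 16 * C * τ * E + 32 * C * y * Q) := by
        rw [Finset.sum_mul]

/-- The weighted large sieve inequality: split `Λ` by `ρ.den ≤ Z`, `f q ^ 2 ≤ f q`. -/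
theorem ls_H (γ K y C e τ : ℝ) (Q Z : ℕ) (hQ : 0 < Q) (hZ1 : 1 ≤ Z) (hC : 0 ≤ C) (he : 0 < e)
    (hR : RowBd γ C e) (hnz : ∀ n : ℕ, 0 < n → 0 < nrm ((n : ℝ) * γ))
    (hK : 0 < K) (hy : 0 < y) (hyK : y ≤ K / Q) (hτ0 : 0 ≤ τ) (hZ : Z ^ 3 ≤ Q) (S : Finset ℕ)
    (hS : ∀ q ∈ S, Q ≤ q ∧ q < 2 * Q) (f : ℕ → ℝ) (hf0 : ∀ q, 0 ≤ f q) (hf1 : ∀ q, f q ≤ 1)
    (hfσ : ∀ q ∈ S, f q * (∑ d ∈ q.divisors, (d : ℝ)) ≤ q)
    (hτ : ∀ q ∈ S, (q.divisors.card : ℝ) ≤ τ) (Λ : Finset ℚ)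
    (hΛ : ∀ ρ ∈ Λ, 0 < ρ ∧ (ρ : ℝ) < y) :
    ∑ ρ ∈ Λ, ‖coefW γ K S f ρ‖ ^ 2 ≤ (∑ q ∈ S, f q) *
      ((3 + 48 * C) * y * Q + 3 * τ * Q * min y (1 / (Z : ℝ)) + 16 * C * (Z + τ) * (y * Q) ^ e) := by
  classical
  have hA := fam_A_H γ K y C e Q Z hQ hC he hR hnz hK hy hyK hZ S hS f
    (Λ.filter (fun ρ => ρ.den ≤ Z))
    (fun ρ hρ => by
      obtain ⟨h1, h2⟩ := mem_filter.1 hρ
      exact ⟨(hΛ ρ h1).1, (hΛ ρ h1).2, h2⟩)
  have hB' := fam_B_H γ K y C e τ Q Z hQ hZ1 hC he hR hnz hK hy hyK hτ0 S hS f hf0 hf1 hfσ hτ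
    (Λ.filter (fun ρ => ¬ ρ.den ≤ Z))
    (fun ρ hρ => by
      obtain ⟨h1, h2⟩ := mem_filter.1 hρ
      exact ⟨(hΛ ρ h1).1, (hΛ ρ h1).2, not_le.1 h2⟩)
  rw [← sum_filter_add_sum_filter_not Λ (fun ρ => ρ.den ≤ Z)]
  have hQ' : (0 : ℝ) < Q := by exact_mod_cast hQ
  set E : ℝ := (y * Q) ^ e with hE
  have hE0 : 0 ≤ E := Real.rpow_nonneg (by positivity) _
  have hsq : ∑ q ∈ S, f q ^ 2 ≤ ∑ q ∈ S, f q := Finset.sum_le_sum fun q _ => by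
    have h1 := hf0 q
    have h2 := hf1 q
    nlinarith
  have hA0 : 0 ≤ (3 + 16 * C) * y * Q + 16 * C * Z * E := by positivity
  calc _ ≤ (∑ q ∈ S, f q) * ((3 + 16 * C) * y * Q + 16 * C * Z * E) +
        (∑ q ∈ S, f q) * (3 * τ * Q * min y (1 / (Z : ℝ)) + 16 * C * τ * E + 32 * C * y * Q) :=
        add_le_add (hA.trans (mul_le_mul_of_nonneg_right hsq hA0)) hB'
    _ = _ := by ring


end Vale.Agent.Lib.P028H
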