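import Vale.Agent.Lib.P028H.Row
import Vale.Agent.Lib.P028G.PerDen

/-! Row sums of the Gram matrix over rationals with a fixed denominator, for shifts with a row bound. -/

open scoped BigOperators
open Finset
open Vale.Agent.Lib.P028G

namespace Vale.Agent.Lib.P028H

private lemma sum_comp_le_Icc_H {L' : Finset ℚ} {φ : ℚ → ℕ} (hinj : Set.InjOn φ L') {N : ℕ}
    (hmem : ∀ r ∈ L', φ r ∈ Icc 1 N) (F : ℕ → ℝ) (hF : ∀ n, 0 ≤ F n) :
    ∑ r ∈ L', F (φ r) ≤ ∑ n ∈ Icc 1 N, F n := by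
  rw [← Finset.sum_image hinj]
  apply Finset.sum_le_sum_of_subset_of_nonneg
  · intro n hn
    rcases Finset.mem_image.mp hn with ⟨r, hr, rfl⟩
    exact hmem r hr
  · intro n _ _
    exact hF n

private lemma nrm_natAbs_H (z : ℤ) (γ : ℝ) : nrm ((z : ℝ) * γ) = nrm ((z.natAbs : ℝ) * γ) := by
  rcases le_total 0 z with h | h
  · have e : (z : ℝ) = (z.natAbs : ℝ) := by
      rw [Nat.cast_natAbs, Int.cast_abs, abs_of_nonneg (by exact_mod_cast h)]
    rw [← e]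
  · have e : (z : ℝ) = -(z.natAbs : ℝ) := by
      rw [Nat.cast_natAbs, Int.cast_abs, abs_of_nonpos (by exact_mod_cast h), neg_neg]
    rw [e, neg_mul, nrm_neg]

/-- Same proof as `P028G.per_den`, with `RowBd` instead of `bad_sum`: `T = Q / ell`, `N = ⌊y * ell⌋₊`, and
`N * T ≤ y * Q`, so `(N * T) ^ e ≤ (y * Q) ^ e`. Positivity of `nrm` comes from `hnz` (and `nrm_neg` for negative `n`). -/
theorem per_den_H (γ K y C e : ℝ) (Q : ℕ) (hQ : 0 < Q) (hC : 0 ≤ C) (he : 0 < e) (hR : RowBd γ C e)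
    (hnz : ∀ n : ℕ, 0 < n → 0 < nrm ((n : ℝ) * γ)) (hK : 0 < K)
    (hy : 0 < y) (hyK : y ≤ K / Q) (ρ : ℚ) (hρ : 0 < ρ) (hρy : (ρ : ℝ) < y) (d' : ℕ)
    (L : Finset ℚ) (hL : ∀ ρ' ∈ L, 0 < ρ' ∧ (ρ' : ℝ) < y ∧ ρ'.den = d') :
    ∑ ρ' ∈ L.filter (· ≠ ρ), ‖gram γ K Q ρ ρ'‖ ≤
      16 * C * (y * (Nat.lcm ρ.den d' : ℝ) + (y * Q) ^ e) := by
  classical
  set l : ℕ := Nat.lcm ρ.den d' with hl
  have hell : ∀ ρ' ∈ L, ell ρ ρ' = l := by
    intro ρ' h
    unfold ell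
    rw [(hL ρ' h).2.2]
  have hd' : 0 < d' ∨ L = ∅ := by
    rcases L.eq_empty_or_nonempty with h | ⟨r, hr⟩
    · exact Or.inr h
    · left
      rw [← (hL r hr).2.2]
      exact r.pos
  have hy' : (0 : ℝ) ≤ y * l := by positivity
  set N : ℕ := ⌊y * (l : ℝ)⌋₊ with hN
  have hNle : (N : ℝ) ≤ y * l := Nat.floor_le hy'
  set T : ℝ := (Q : ℝ) / l with hT
  set F : ℕ → ℝ := fun n => min T (1 / (T * nrm ((n : ℝ) * γ) ^ 2)) with hF
  have hQ' : (0 : ℝ) < Q := by exact_mod_cast hQ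
  -- properties on the support
  have hne : ∀ ρ' ∈ L.filter (· ≠ ρ), 1 ≤ (nn ρ ρ').natAbs ∧ (nn ρ ρ').natAbs ≤ N := by
    intro ρ' h
    rcases Finset.mem_filter.mp h with ⟨hm, hne⟩
    have hc := nn_cast ρ ρ'
    rw [hell ρ' hm] at hc
    have hlpos : (0 : ℝ) < l := by
      have := ell_pos ρ ρ'
      rw [hell ρ' hm] at this
      exact_mod_cast this
    constructor
    · have hz : nn ρ ρ' ≠ 0 := by
        intro h0
        rw [h0] at hc
        have : (ρ : ℝ) - ρ' = 0 := by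
          have h1 : ((ρ : ℝ) - ρ') * l = 0 := by simpa using hc.symm
          rcases mul_eq_zero.mp h1 with h2 | h2
          · exact h2
          · exact absurd h2 hlpos.ne'
        have h3 : (ρ : ℝ) = ρ' := by linarith
        exact hne (Rat.cast_injective h3).symm
      exact Nat.one_le_iff_ne_zero.mpr (Int.natAbs_ne_zero.mpr hz)
    · apply Nat.le_floor
      have habs : ((nn ρ ρ').natAbs : ℝ) = |((nn ρ ρ' : ℤ) : ℝ)| := by
        rw [Nat.cast_natAbs]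
        push_cast
        rfl
      rw [habs, hc, abs_mul, abs_of_pos hlpos]
      apply mul_le_mul_of_nonneg_right _ hlpos.le
      have h1 : (0 : ℝ) < ρ := by exact_mod_cast hρ
      have h2 : (0 : ℝ) < ρ' := by exact_mod_cast (hL ρ' hm).1
      have h3 := (hL ρ' hm).2.1
      rw [abs_le]
      constructor <;> linarith
  have hterm : ∀ ρ' ∈ L.filter (· ≠ ρ), ‖gram γ K Q ρ ρ'‖ ≤ 8 * F (nn ρ ρ').natAbs := by
    intro ρ' h
    rcases Finset.mem_filter.mp h with ⟨hm, _⟩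
    have hp := (hL ρ' hm)
    have h1 : (ρ : ℝ) ≤ K / Q := hρy.le.trans hyK
    have h2 : (ρ' : ℝ) ≤ K / Q := hp.2.1.le.trans hyK
    have hn1 := (hne ρ' h).1
    have hnr : 0 < nrm ((nn ρ ρ' : ℝ) * γ) := by
      rw [nrm_natAbs_H]
      exact hnz _ hn1
    have := gram_min γ K hK Q hQ ρ ρ' hρ hp.1 h1 h2 hnr
    rw [hell ρ' hm, nrm_natAbs_H] at this
    exact this
  have hF0 : ∀ n, 0 ≤ F n := by
    intro n
    apply le_min
    · exact div_nonneg hQ'.le (Nat.cast_nonneg _)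
    · apply div_nonneg zero_le_one
      apply mul_nonneg (div_nonneg hQ'.le (Nat.cast_nonneg _)) (sq_nonneg _)
  have hTpos : 0 < T ∨ L.filter (· ≠ ρ) = ∅ := by
    rcases (L.filter (· ≠ ρ)).eq_empty_or_nonempty with h | ⟨r, hr⟩
    · exact Or.inr h
    · left
      have hm := (Finset.mem_filter.mp hr).1
      have := ell_pos ρ r
      rw [hell r hm] at this
      have hlpos : (0 : ℝ) < l := by exact_mod_cast this
      exact div_pos hQ' hlpos
  rcases hTpos with hTpos | hempty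
  swap
  · rw [hempty, Finset.sum_empty]
    have hlnn : (0 : ℝ) ≤ l := Nat.cast_nonneg _
    positivity
  -- positive and negative parts
  have hbs := hR N T hTpos
  have hpart : ∀ P : ℚ → Prop, ∀ [DecidablePred P],
      (∀ r₁ ∈ (L.filter (· ≠ ρ)).filter P, ∀ r₂ ∈ (L.filter (· ≠ ρ)).filter P,
        (nn ρ r₁).natAbs = (nn ρ r₂).natAbs → nn ρ r₁ = nn ρ r₂) →
      ∑ r ∈ (L.filter (· ≠ ρ)).filter P, ‖gram γ K Q ρ r‖ ≤ 8 * (C * ((N : ℝ) + ((N : ℝ) * T) ^ e)) := by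
    intro P _ hsgn
    have hinj : Set.InjOn (fun r => (nn ρ r).natAbs) ((L.filter (· ≠ ρ)).filter P : Finset ℚ) := by
      intro r₁ h₁ r₂ h₂ he
      have h₁' : r₁ ∈ (L.filter (· ≠ ρ)).filter P := h₁
      have h₂' : r₂ ∈ (L.filter (· ≠ ρ)).filter P := h₂
      have hz := hsgn r₁ h₁' r₂ h₂' he
      have hm₁ := (Finset.mem_filter.mp (Finset.mem_filter.mp h₁').1).1
      have hm₂ := (Finset.mem_filter.mp (Finset.mem_filter.mp h₂').1).1
      have c₁ := nn_cast ρ r₁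
      have c₂ := nn_cast ρ r₂
      rw [hell r₁ hm₁] at c₁
      rw [hell r₂ hm₂] at c₂
      rw [hz, c₂] at c₁
      have hlpos : (0 : ℝ) < l := by
        have := ell_pos ρ r₁
        rw [hell r₁ hm₁] at this
        exact_mod_cast this
      have h3 : ((ρ : ℝ) - r₂) = (ρ : ℝ) - r₁ := mul_right_cancel₀ hlpos.ne' c₁
      have h4 : (r₁ : ℝ) = r₂ := by linarith
      exact Rat.cast_injective h4
    calc ∑ r ∈ (L.filter (· ≠ ρ)).filter P, ‖gram γ K Q ρ r‖
        ≤ ∑ r ∈ (L.filter (· ≠ ρ)).filter P, 8 * F (nn ρ r).natAbs :=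
          Finset.sum_le_sum fun r hr => hterm r (Finset.mem_filter.mp hr).1
      _ = 8 * ∑ r ∈ (L.filter (· ≠ ρ)).filter P, F (nn ρ r).natAbs := by rw [Finset.mul_sum]
      _ ≤ 8 * ∑ n ∈ Icc 1 N, F n := by
          apply mul_le_mul_of_nonneg_left _ (by norm_num)
          apply sum_comp_le_Icc_H hinj _ F hF0
          intro r hr
          have := hne r (Finset.mem_filter.mp hr).1
          exact Finset.mem_Icc.mpr this
      _ ≤ 8 * (C * ((N : ℝ) + ((N : ℝ) * T) ^ e)) := mul_le_mul_of_nonneg_left hbs (by norm_num)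
  have hpos := hpart (fun r => 0 < nn ρ r) (by
    intro r₁ h₁ r₂ h₂ he
    have p₁ := (Finset.mem_filter.mp h₁).2
    have p₂ := (Finset.mem_filter.mp h₂).2
    omega)
  have hneg := hpart (fun r => ¬ 0 < nn ρ r) (by
    intro r₁ h₁ r₂ h₂ he
    have p₁ := (Finset.mem_filter.mp h₁).2
    have p₂ := (Finset.mem_filter.mp h₂).2
    omega)
  have hsplit := Finset.sum_filter_add_sum_filter_not (L.filter (· ≠ ρ)) (fun r => 0 < nn ρ r)
    (fun r => ‖gram γ K Q ρ r‖)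
  rw [← hsplit]
  have hNT : (N : ℝ) * T ≤ y * Q := by
    have hl0 : (0 : ℝ) ≤ l := Nat.cast_nonneg _
    have hT0 : 0 ≤ T := hTpos.le
    have h1 : (N : ℝ) * T ≤ (y * l) * T := mul_le_mul_of_nonneg_right hNle hT0
    refine h1.trans (le_of_eq ?_)
    have hlne : (l : ℝ) ≠ 0 := by
      intro h0
      rw [hT, h0] at hTpos
      simp at hTpos
    rw [hT]
    field_simp
  have hpow : ((N : ℝ) * T) ^ e ≤ (y * Q) ^ e :=
    Real.rpow_le_rpow (mul_nonneg (Nat.cast_nonneg _) hTpos.le) hNT he.le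
  have hfin : 8 * (C * ((N : ℝ) + ((N : ℝ) * T) ^ e)) + 8 * (C * ((N : ℝ) + ((N : ℝ) * T) ^ e)) ≤
      16 * C * (y * (l : ℝ) + (y * Q) ^ e) := by
    have h2 : (N : ℝ) + ((N : ℝ) * T) ^ e ≤ y * (l : ℝ) + (y * Q) ^ e := add_le_add hNle hpow
    have h3 := mul_le_mul_of_nonneg_left h2 (by positivity : (0 : ℝ) ≤ 16 * C)
    linarith
  linarith

end Vale.Agent.Lib.P028H
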