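import Vale.Agent.Lib.P028H.Fam
import Vale.Agent.Lib.P028G.Regroup

/-! The exact factorisation with weights. -/

open scoped BigOperators ComplexConjugate Real
open Finset
open Vale.Agent.Lib.P028G

namespace Vale.Agent.Lib.P028H

/-- Same `Λ` and same proof as `P028G.regroup` (`offd_eq_sum` pair by pair), now with the weights multiplied in. -/
theorem regroup_w (γ : ℝ) (Ka Kb Qa Qb : ℕ) (hKa : 0 < Ka) (hKb : 0 < Kb) (hQa : 0 < Qa)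
    (hQb : 0 < Qb) (Sa Sb : Finset ℕ) (hSa : ∀ q ∈ Sa, Qa ≤ q) (hSb : ∀ r ∈ Sb, Qb ≤ r) (f : ℕ → ℝ) :
    ∃ Λ : Finset ℚ, (∀ ρ ∈ Λ, 0 < ρ ∧ (ρ : ℝ) < min ((Kb : ℝ) / Qa) ((Ka : ℝ) / Qb)) ∧
      ∑ q ∈ Sa, ∑ r ∈ Sb, f q * f r * offd γ Ka Kb q r =
        ∑ ρ ∈ Λ, (coefW γ Kb Sa f ρ * conj (coefW γ Ka Sb f ρ)).re := by
  classical
  set y : ℝ := min ((Kb : ℝ) / Qa) ((Ka : ℝ) / Qb) with hy
  set Λ : Finset ℚ := ((Sa ×ˢ Ico 1 Kb).image (fun x : ℕ × ℕ => (x.2 : ℚ) / x.1)).filter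
    (fun ρ => (ρ : ℝ) < y) with hΛdef
  have hpos : ∀ ρ ∈ Λ, 0 < ρ := by
    intro ρ hρ
    obtain ⟨x, hx, rfl⟩ := Finset.mem_image.mp (Finset.mem_filter.mp hρ).1
    obtain ⟨h1, h2⟩ := Finset.mem_product.mp hx
    have h3 : 0 < x.1 := lt_of_lt_of_le hQa (hSa _ h1)
    have h4 : 1 ≤ x.2 := (Finset.mem_Ico.mp h2).1
    have h5 : (0 : ℚ) < x.1 := by exact_mod_cast h3
    have h6 : (0 : ℚ) < x.2 := by exact_mod_cast h4
    exact div_pos h6 h5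
  refine ⟨Λ, fun ρ hρ => ⟨hpos ρ hρ, (Finset.mem_filter.mp hρ).2⟩, ?_⟩
  have hpair : ∀ q ∈ Sa, ∀ r ∈ Sb, offd γ Ka Kb q r =
      ∑ ρ ∈ Λ, (vec γ Kb ρ q * conj (vec γ Ka ρ r)).re := by
    intro q hq r hr
    have hq0 : 0 < q := lt_of_lt_of_le hQa (hSa q hq)
    have hr0 : 0 < r := lt_of_lt_of_le hQb (hSb r hr)
    refine offd_eq_sum γ Ka Kb hKa hKb q r hq0 hr0 Λ hpos ?_
    intro n m hn1 hnK hm1 hmK hnm
    refine Finset.mem_filter.mpr ⟨Finset.mem_image.mpr ⟨(q, m), Finset.mem_product.mpr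
      ⟨hq, Finset.mem_Ico.mpr ⟨hm1, hmK⟩⟩, rfl⟩, ?_⟩
    have hqR : (0 : ℝ) < q := by exact_mod_cast hq0
    have hrR : (0 : ℝ) < r := by exact_mod_cast hr0
    have hQaR : (0 : ℝ) < Qa := by exact_mod_cast hQa
    have hQbR : (0 : ℝ) < Qb := by exact_mod_cast hQb
    have hQq : (Qa : ℝ) ≤ q := by exact_mod_cast hSa q hq
    have hQr : (Qb : ℝ) ≤ r := by exact_mod_cast hSb r hr
    have e1 : ((n : ℝ)) * q = m * r := by exact_mod_cast hnm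
    have e2 : (((m : ℚ) / q : ℚ) : ℝ) = (m : ℝ) / q := by push_cast; ring
    have e3 : (m : ℝ) / q = (n : ℝ) / r := by
      rw [div_eq_div_iff hqR.ne' hrR.ne']
      linarith
    rw [e2]
    apply lt_min
    · have hmR : (m : ℝ) < Kb := by exact_mod_cast hmK
      calc (m : ℝ) / q ≤ (m : ℝ) / Qa := div_le_div_of_nonneg_left (Nat.cast_nonneg _) hQaR hQq
        _ < (Kb : ℝ) / Qa := div_lt_div_of_pos_right hmR hQaR
    · rw [e3]
      have hnR : (n : ℝ) < Ka := by exact_mod_cast hnK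
      calc (n : ℝ) / r ≤ (n : ℝ) / Qb := div_le_div_of_nonneg_left (Nat.cast_nonneg _) hQbR hQr
        _ < (Ka : ℝ) / Qb := div_lt_div_of_pos_right hnR hQbR
  have hL : ∑ q ∈ Sa, ∑ r ∈ Sb, f q * f r * offd γ Ka Kb q r =
      ∑ q ∈ Sa, ∑ r ∈ Sb, ∑ ρ ∈ Λ, f q * f r * (vec γ Kb ρ q * conj (vec γ Ka ρ r)).re := by
    refine Finset.sum_congr rfl fun q hq => Finset.sum_congr rfl fun r hr => ?_
    rw [hpair q hq r hr, Finset.mul_sum]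
  rw [hL]
  have hR : ∀ ρ : ℚ, (coefW γ Kb Sa f ρ * conj (coefW γ Ka Sb f ρ)).re =
      ∑ q ∈ Sa, ∑ r ∈ Sb, f q * f r * (vec γ Kb ρ q * conj (vec γ Ka ρ r)).re := by
    intro ρ
    unfold coefW
    rw [map_sum, Finset.sum_mul_sum, Complex.re_sum]
    refine Finset.sum_congr rfl fun q _ => ?_
    rw [Complex.re_sum]
    refine Finset.sum_congr rfl fun r _ => ?_
    rw [map_mul, Complex.conj_ofReal]
    have e : ((f q : ℝ) : ℂ) * vec γ Kb ρ q * (((f r : ℝ) : ℂ) * conj (vec γ Ka ρ r)) =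
        ((f q * f r : ℝ) : ℂ) * (vec γ Kb ρ q * conj (vec γ Ka ρ r)) := by
      push_cast
      ring
    rw [e, Complex.re_ofReal_mul]
  simp_rw [hR]
  rw [Finset.sum_comm (s := Λ) (t := Sa)]
  refine Finset.sum_congr rfl fun q _ => ?_
  rw [Finset.sum_comm (s := Λ) (t := Sb)]

end Vale.Agent.Lib.P028H
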