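import Vale.Agent.Lib.P028G.BadSum

/-! The row sums for shifts of finite Diophantine type. -/

open scoped BigOperators
open Finset
open Vale.Agent.Lib.P028G

namespace Vale.Agent.Lib.P028H

/-- Diophantine type `w`. -/
def Dio (γ κ w : ℝ) : Prop := ∀ n : ℕ, 0 < n → ∀ a : ℤ, κ / (n : ℝ) ^ w ≤ |(n : ℝ) * γ - a|

/-- The row bound used in the large sieve. -/
def RowBd (γ C e : ℝ) : Prop := ∀ (N : ℕ) (T : ℝ), 0 < T →
  ∑ n ∈ Icc 1 N, min T (1 / (T * nrm ((n : ℝ) * γ) ^ 2)) ≤ C * ((N : ℝ) + ((N : ℝ) * T) ^ e)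

theorem Dio.nrm_pos {γ κ w : ℝ} (h : Dio γ κ w) (hκ : 0 < κ) (n : ℕ) (hn : 0 < n) :
    0 < nrm ((n : ℝ) * γ) := by
  have h1 := h n hn (round ((n : ℝ) * γ))
  have h2 : (0 : ℝ) < (n : ℝ) ^ w := Real.rpow_pos_of_pos (by exact_mod_cast hn) w
  exact lt_of_lt_of_le (div_pos hκ h2) h1

/-- Separation: as `P028G.bad_sum` with `δ = κ / N ^ w`: for `1 ≤ n ≤ N`, `|y n| ≥ κ / n ^ w ≥ δ`, where
`y n = n γ - round (n γ)`, and `|y n - y n'| ≥ κ / |n - n'| ^ w ≥ δ`. Split by the sign of `y n` and use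
`sum_sep` twice (`x = y`, `x = -y`). -/
theorem row_sep (γ κ w : ℝ) (hκ : 0 < κ) (hw : 1 ≤ w) (h : Dio γ κ w) (N : ℕ) (T : ℝ) (hT : 0 < T) :
    ∑ n ∈ Icc 1 N, min T (1 / (T * nrm ((n : ℝ) * γ) ^ 2)) ≤ 4 * (N : ℝ) ^ w / κ := by
  rcases Nat.eq_zero_or_pos N with rfl | hN
  · rw [Finset.Icc_eq_empty (by norm_num), Finset.sum_empty]
    positivity
  have hNpos : (0 : ℝ) < (N : ℝ) := by exact_mod_cast hN
  have hw0 : 0 ≤ w := by linarith
  have hNw : (0 : ℝ) < (N : ℝ) ^ w := Real.rpow_pos_of_pos hNpos w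
  have hmono : ∀ m : ℕ, 0 < m → m ≤ N → κ / (N : ℝ) ^ w ≤ κ / (m : ℝ) ^ w := by
    intro m hm hmN
    have hm0 : (0 : ℝ) < (m : ℝ) := by exact_mod_cast hm
    have hmN' : (m : ℝ) ≤ N := by exact_mod_cast hmN
    exact div_le_div_of_nonneg_left hκ.le (Real.rpow_pos_of_pos hm0 w)
      (Real.rpow_le_rpow hm0.le hmN' hw0)
  set δ : ℝ := κ / (N : ℝ) ^ w with hδdef
  have hδ : 0 < δ := div_pos hκ hNw
  set y : ℕ → ℝ := fun n => (n : ℝ) * γ - round ((n : ℝ) * γ) with hy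
  have hlow : ∀ n ∈ Icc 1 N, δ ≤ |y n| := by
    intro n hn
    rw [Finset.mem_Icc] at hn
    have h1 := h n (by omega) (round ((n : ℝ) * γ))
    exact (hmono n (by omega) hn.2).trans h1
  have hsep0 : ∀ n ∈ Icc 1 N, ∀ n' ∈ Icc 1 N, n' < n → δ ≤ |y n - y n'| := by
    intro n hn n' hn' hlt
    rw [Finset.mem_Icc] at hn hn'
    have h1 := h (n - n') (by omega) (round ((n : ℝ) * γ) - round ((n' : ℝ) * γ))
    have hc : ((n - n' : ℕ) : ℝ) = (n : ℝ) - n' := by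
      rw [Nat.cast_sub hlt.le]
    have e : ((n - n' : ℕ) : ℝ) * γ - ((round ((n : ℝ) * γ) - round ((n' : ℝ) * γ) : ℤ) : ℝ) =
        y n - y n' := by
      rw [hc]; simp only [hy]; push_cast; ring
    rw [e] at h1
    exact (hmono (n - n') (by omega) (by omega)).trans h1
  have hsep : ∀ n ∈ Icc 1 N, ∀ n' ∈ Icc 1 N, n ≠ n' → δ ≤ |y n - y n'| := by
    intro n hn n' hn' hne
    rcases lt_or_gt_of_ne hne with h | h
    · rw [abs_sub_comm]; exact hsep0 n' hn' n hn h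
    · exact hsep0 n hn n' hn' h
  set A := (Icc 1 N).filter (fun n => 0 < y n) with hA
  set B := (Icc 1 N).filter (fun n => ¬ 0 < y n) with hB
  have hsplit := Finset.sum_filter_add_sum_filter_not (Icc 1 N) (fun n => 0 < y n)
    (fun n => min T (1 / (T * nrm ((n : ℝ) * γ) ^ 2)))
  have hnrm : ∀ n : ℕ, nrm ((n : ℝ) * γ) = |y n| := fun n => rfl
  have hSA : ∑ n ∈ A, min T (1 / (T * nrm ((n : ℝ) * γ) ^ 2)) ≤ 2 / δ := by
    have := sum_sep hδ hT A y
      (fun n hn => by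
        have hn' := Finset.mem_filter.mp hn
        have := hlow n hn'.1
        rwa [abs_of_pos hn'.2] at this)
      (fun n hn n' hn' hne => hsep n (Finset.mem_filter.mp hn).1 n' (Finset.mem_filter.mp hn').1 hne)
    refine le_trans (le_of_eq ?_) this
    apply Finset.sum_congr rfl
    intro n _
    rw [hnrm, sq_abs]
  have hSB : ∑ n ∈ B, min T (1 / (T * nrm ((n : ℝ) * γ) ^ 2)) ≤ 2 / δ := by
    have := sum_sep hδ hT B (fun n => - y n)
      (fun n hn => by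
        have hn' := Finset.mem_filter.mp hn
        have := hlow n hn'.1
        have hneg : y n ≤ 0 := not_lt.mp hn'.2
        rwa [abs_of_nonpos hneg] at this)
      (fun n hn n' hn' hne => by
        have := hsep n (Finset.mem_filter.mp hn).1 n' (Finset.mem_filter.mp hn').1 hne
        rw [abs_sub_comm] at this
        have e : - y n - - y n' = y n' - y n := by ring
        simp only [e]
        exact this)
    refine le_trans (le_of_eq ?_) this
    apply Finset.sum_congr rfl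
    intro n _
    rw [hnrm, sq_abs, neg_sq]
  have hfin : 2 / δ + 2 / δ = 4 * (N : ℝ) ^ w / κ := by
    rw [hδdef]
    field_simp
    ring
  rw [← hsplit, ← hfin]
  exact add_le_add hSA hSB

/-- One block of separated points. -/
theorem block_bound_aux {δ T : ℝ} (hδ : 0 < δ) (hT : 0 < T) (A : Finset ℕ) (y : ℕ → ℝ)
    (hsep : ∀ n ∈ A, ∀ n' ∈ A, n ≠ n' → δ ≤ |y n - y n'|) :
    ∑ n ∈ A, min T (1 / (T * |y n| ^ 2)) ≤ 2 * T + 4 / δ := by
  set f : ℕ → ℝ := fun n => min T (1 / (T * |y n| ^ 2)) with hf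
  have hfT : ∀ n, f n ≤ T := fun n => min_le_left _ _
  -- the three splits
  have s1 := Finset.sum_filter_add_sum_filter_not A (fun n => δ ≤ y n) f
  set B := A.filter (fun n => ¬ δ ≤ y n) with hB
  have s2 := Finset.sum_filter_add_sum_filter_not B (fun n => y n ≤ -δ) f
  set C := B.filter (fun n => ¬ y n ≤ -δ) with hC
  have s3 := Finset.sum_filter_add_sum_filter_not C (fun n => 0 ≤ y n) f
  have hA1 : ∑ n ∈ A.filter (fun n => δ ≤ y n), f n ≤ 2 / δ := by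
    have := sum_sep hδ hT (A.filter (fun n => δ ≤ y n)) y
      (fun n hn => (Finset.mem_filter.mp hn).2)
      (fun n hn n' hn' hne =>
        hsep n (Finset.mem_filter.mp hn).1 n' (Finset.mem_filter.mp hn').1 hne)
    refine le_trans (le_of_eq ?_) this
    apply Finset.sum_congr rfl
    intro n _
    simp only [hf, sq_abs]
  have hB1 : ∑ n ∈ B.filter (fun n => y n ≤ -δ), f n ≤ 2 / δ := by
    have := sum_sep hδ hT (B.filter (fun n => y n ≤ -δ)) (fun n => - y n)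
      (fun n hn => by
        have := (Finset.mem_filter.mp hn).2
        linarith)
      (fun n hn n' hn' hne => by
        have h1 := (Finset.mem_filter.mp (Finset.mem_filter.mp hn).1).1
        have h2 := (Finset.mem_filter.mp (Finset.mem_filter.mp hn').1).1
        have := hsep n h1 n' h2 hne
        rw [abs_sub_comm] at this
        have e : - y n - - y n' = y n' - y n := by ring
        simp only [e]
        exact this)
    refine le_trans (le_of_eq ?_) this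
    apply Finset.sum_congr rfl
    intro n _
    simp only [hf, sq_abs, neg_sq]
  have hmemC : ∀ n ∈ C, n ∈ A ∧ ¬ δ ≤ y n ∧ ¬ y n ≤ -δ := by
    intro n hn
    have h1 := Finset.mem_filter.mp hn
    have h2 := Finset.mem_filter.mp h1.1
    exact ⟨h2.1, h2.2, h1.2⟩
  have hC1 : ∑ n ∈ C.filter (fun n => 0 ≤ y n), f n ≤ T := by
    have hcard : (C.filter (fun n => 0 ≤ y n)).card ≤ 1 := by
      rw [Finset.card_le_one]
      intro n hn n' hn'
      by_contra hne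
      have h1 := Finset.mem_filter.mp hn
      have h2 := Finset.mem_filter.mp hn'
      have c1 := hmemC n h1.1
      have c2 := hmemC n' h2.1
      have := hsep n c1.1 n' c2.1 hne
      have u1 := not_le.mp c1.2.1
      have u2 := not_le.mp c2.2.1
      have : |y n - y n'| < δ := by
        rw [abs_lt]; constructor <;> linarith [h1.2, h2.2]
      linarith
    calc ∑ n ∈ C.filter (fun n => 0 ≤ y n), f n
        ≤ (C.filter (fun n => 0 ≤ y n)).card • T :=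
          Finset.sum_le_card_nsmul _ _ _ (fun n _ => hfT n)
      _ ≤ 1 • T := by
          apply nsmul_le_nsmul_left hT.le hcard
      _ = T := one_nsmul _
  have hC2 : ∑ n ∈ C.filter (fun n => ¬ 0 ≤ y n), f n ≤ T := by
    have hcard : (C.filter (fun n => ¬ 0 ≤ y n)).card ≤ 1 := by
      rw [Finset.card_le_one]
      intro n hn n' hn'
      by_contra hne
      have h1 := Finset.mem_filter.mp hn
      have h2 := Finset.mem_filter.mp hn'
      have c1 := hmemC n h1.1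
      have c2 := hmemC n' h2.1
      have := hsep n c1.1 n' c2.1 hne
      have u1 := not_le.mp c1.2.2
      have u2 := not_le.mp c2.2.2
      have v1 := not_le.mp h1.2
      have v2 := not_le.mp h2.2
      have : |y n - y n'| < δ := by
        rw [abs_lt]; constructor <;> linarith
      linarith
    calc ∑ n ∈ C.filter (fun n => ¬ 0 ≤ y n), f n
        ≤ (C.filter (fun n => ¬ 0 ≤ y n)).card • T :=
          Finset.sum_le_card_nsmul _ _ _ (fun n _ => hfT n)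
      _ ≤ 1 • T := by
          apply nsmul_le_nsmul_left hT.le hcard
      _ = T := one_nsmul _
  have e4 : 4 / δ = 2 / δ + 2 / δ := by ring
  rw [e4]
  rw [← s1, ← s2, ← s3]
  linarith

/-- Separation inside a block. -/
theorem block_sep (γ : ℝ) (q N : ℕ) (hq : 0 < q) (a : ℤ) (hco : IsCoprime a (q : ℤ))
    (hqa : |(q : ℝ) * γ - a| ≤ 1 / (2 * (N : ℝ) + 1)) (n n' : ℕ) (hn : n ≤ N) (hlt : n' < n)
    (hn' : 1 ≤ n') (hdiv : n / q = n' / q) :
    1 / (2 * (q : ℝ)) ≤ |((n : ℝ) * γ - round ((n : ℝ) * γ)) - ((n' : ℝ) * γ - round ((n' : ℝ) * γ))| := by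
  have hqR : (0 : ℝ) < (q : ℝ) := by exact_mod_cast hq
  have hNR : (0 : ℝ) ≤ (N : ℝ) := Nat.cast_nonneg N
  set m : ℕ := n - n' with hm
  have hm0 : 0 < m := by omega
  have hmN : m ≤ N := by omega
  have hmq : m < q := by
    have h1 := Nat.div_add_mod n q
    have h2 := Nat.div_add_mod n' q
    have h3 := Nat.mod_lt n hq
    have h4 := Nat.mod_lt n' hq
    rw [hdiv] at h1
    have : n - n' = n % q - n' % q := by omega
    omega
  have hmcast : ((m : ℕ) : ℝ) = (n : ℝ) - n' := by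
    rw [hm, Nat.cast_sub hlt.le]
  set c : ℤ := round ((n : ℝ) * γ) - round ((n' : ℝ) * γ) with hc
  have ediff : ((n : ℝ) * γ - round ((n : ℝ) * γ)) - ((n' : ℝ) * γ - round ((n' : ℝ) * γ))
      = (m : ℝ) * γ - c := by
    rw [hmcast, hc]; push_cast; ring
  rw [ediff]
  -- the integer is nonzero
  have hne : (m : ℤ) * a - c * q ≠ 0 := by
    intro h0
    have hd : (q : ℤ) ∣ a * (m : ℤ) := ⟨c, by linarith⟩
    have hd2 : (q : ℤ) ∣ (m : ℤ) := hco.symm.dvd_of_dvd_mul_left hd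
    have hd3 : q ∣ m := by exact_mod_cast hd2
    have := Nat.le_of_dvd hm0 hd3
    omega
  have h1 : (1 : ℝ) ≤ |((m : ℝ) * a - c * q)| := by
    have := Int.one_le_abs hne
    have h2 : ((|(m : ℤ) * a - c * q| : ℤ) : ℝ) = |((m : ℝ) * a - c * q)| := by
      push_cast; ring_nf
    rw [← h2]
    exact_mod_cast this
  set ε : ℝ := (q : ℝ) * γ - a with hε
  have hmε : |(m : ℝ) * ε| ≤ 1 / 2 := by
    rw [abs_mul, abs_of_nonneg (Nat.cast_nonneg m)]
    have hmN' : (m : ℝ) ≤ N := by exact_mod_cast hmN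
    have hpos : (0 : ℝ) < 2 * (N : ℝ) + 1 := by positivity
    calc (m : ℝ) * |ε| ≤ (N : ℝ) * (1 / (2 * (N : ℝ) + 1)) :=
          mul_le_mul hmN' hqa (abs_nonneg _) hNR
      _ ≤ 1 / 2 := by
          rw [mul_one_div, div_le_iff₀ hpos]
          linarith
  have e : (q : ℝ) * ((m : ℝ) * γ - c) = ((m : ℝ) * a - c * q) + (m : ℝ) * ε := by
    rw [hε]; ring
  have h2 : (1 : ℝ) / 2 ≤ |(q : ℝ) * ((m : ℝ) * γ - c)| := by
    rw [e]
    have h3 : |(m : ℝ) * a - c * q| ≤ |((m : ℝ) * a - c * q) + (m : ℝ) * ε| + |(m : ℝ) * ε| := by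
      have e1 : (m : ℝ) * a - c * q = (((m : ℝ) * a - c * q) + (m : ℝ) * ε) + (-((m : ℝ) * ε)) := by
        ring
      calc |(m : ℝ) * a - c * q|
          = |(((m : ℝ) * a - c * q) + (m : ℝ) * ε) + (-((m : ℝ) * ε))| := by rw [← e1]
        _ ≤ |((m : ℝ) * a - c * q) + (m : ℝ) * ε| + |-((m : ℝ) * ε)| := abs_add_le _ _
        _ = _ := by rw [abs_neg]
    linarith
  rw [abs_mul, abs_of_pos hqR] at h2
  rw [div_le_iff₀ (by positivity)]
  nlinarith [abs_nonneg ((m : ℝ) * γ - c)]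

/-- Block bound. Paper proof. Let `y n = n γ - round (n γ)`, `δ = 1/(2q)`. For `b ≤ N/q` let `A b` be the
`n ∈ Icc 1 N` with `n / q = b`. For `n ≠ n'` in `A b`, `m = |n - n'|` has `0 < m < q`, `m ≤ N`,
`m γ = m a / q + m (q γ - a) / q` where `|m (q γ - a) / q| ≤ N / (q (2N+1)) < 1/(2q)`, and `m a / q` is at distance at least
`1/q` from every integer since `q` does not divide `m a`. So `|y n - y n'| ≥ δ`.
In one block: the `n` with `y n ≥ δ` give at most `2/δ = 4q` by `sum_sep`, those with `y n ≤ -δ` likewise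
(`x = -y`), and at most one `n` has `0 ≤ y n < δ`, at most one has `-δ < y n < 0`, each term at most `T`.
So each block is at most `2 T + 8 q`; the number of blocks is at most `N/q + 1`. -/
theorem row_block (γ : ℝ) (q N : ℕ) (hq : 0 < q) (hN : 0 < N) (a : ℤ) (hco : IsCoprime a (q : ℤ))
    (hqa : |(q : ℝ) * γ - a| ≤ 1 / (2 * (N : ℝ) + 1)) (T : ℝ) (hT : 0 < T) :
    ∑ n ∈ Icc 1 N, min T (1 / (T * nrm ((n : ℝ) * γ) ^ 2)) ≤
      ((N : ℝ) / q + 1) * (2 * T + 8 * q) := by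
  have hqR : (0 : ℝ) < (q : ℝ) := by exact_mod_cast hq
  set y : ℕ → ℝ := fun n => (n : ℝ) * γ - round ((n : ℝ) * γ) with hy
  have hnrm : ∀ n : ℕ, nrm ((n : ℝ) * γ) = |y n| := fun n => rfl
  set f : ℕ → ℝ := fun n => min T (1 / (T * |y n| ^ 2)) with hf
  have hδ : (0 : ℝ) < 1 / (2 * (q : ℝ)) := by positivity
  have hblock : ∀ b ∈ Finset.range (N / q + 1),
      ∑ n ∈ (Icc 1 N).filter (fun n => n / q = b), f n ≤ 2 * T + 8 * (q : ℝ) := by
    intro b _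
    have := block_bound_aux hδ hT ((Icc 1 N).filter (fun n => n / q = b)) y (by
      intro n hn n' hn' hne
      have h1 := Finset.mem_filter.mp hn
      have h2 := Finset.mem_filter.mp hn'
      have m1 := Finset.mem_Icc.mp h1.1
      have m2 := Finset.mem_Icc.mp h2.1
      have hdiv : n / q = n' / q := by rw [h1.2, h2.2]
      rcases lt_or_gt_of_ne hne with hlt | hlt
      · rw [abs_sub_comm]
        exact block_sep γ q N hq a hco hqa n' n m2.2 hlt m1.1 hdiv.symm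
      · exact block_sep γ q N hq a hco hqa n n' m1.2 hlt m2.1 hdiv)
    have e : (4 : ℝ) / (1 / (2 * (q : ℝ))) = 8 * (q : ℝ) := by
      field_simp
      ring
    rw [e] at this
    exact this
  have hmaps : ∀ n ∈ Icc 1 N, n / q ∈ Finset.range (N / q + 1) := by
    intro n hn
    rw [Finset.mem_range]
    have := Nat.div_le_div_right (c := q) (Finset.mem_Icc.mp hn).2
    omega
  have hsum : ∑ n ∈ Icc 1 N, f n =
      ∑ b ∈ Finset.range (N / q + 1), ∑ n ∈ (Icc 1 N).filter (fun n => n / q = b), f n :=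
    (Finset.sum_fiberwise_of_maps_to hmaps f).symm
  have hnn : (0 : ℝ) ≤ 2 * T + 8 * (q : ℝ) := by positivity
  have hcount : ((N / q + 1 : ℕ) : ℝ) ≤ (N : ℝ) / q + 1 := by
    push_cast
    have := @Nat.cast_div_le ℝ _ _ _ N q
    linarith
  calc ∑ n ∈ Icc 1 N, min T (1 / (T * nrm ((n : ℝ) * γ) ^ 2))
      = ∑ n ∈ Icc 1 N, f n := by
        apply Finset.sum_congr rfl
        intro n _
        simp only [hf, hnrm]
    _ = ∑ b ∈ Finset.range (N / q + 1), ∑ n ∈ (Icc 1 N).filter (fun n => n / q = b), f n := hsum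
    _ ≤ ((N / q + 1 : ℕ) : ℝ) * (2 * T + 8 * (q : ℝ)) := by
        have := Finset.sum_le_card_nsmul _ _ _ hblock
        rw [Finset.card_range, nsmul_eq_mul] at this
        exact this
    _ ≤ ((N : ℝ) / q + 1) * (2 * T + 8 * q) := mul_le_mul_of_nonneg_right hcount hnn

/-- Dirichlet, reduced. `Real.exists_nat_abs_mul_sub_round_le γ (n := 2 N)`, then divide by the gcd: if
`g = gcd(q₀, a₀)`, `q₀ = g q`, `a₀ = g a` then `|q γ - a| = |q₀ γ - a₀| / g`. -/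
theorem exists_reduced (γ : ℝ) (N : ℕ) (hN : 0 < N) :
    ∃ (q : ℕ) (a : ℤ), 0 < q ∧ q ≤ 2 * N ∧ IsCoprime a (q : ℤ) ∧
      |(q : ℝ) * γ - a| ≤ 1 / (2 * (N : ℝ) + 1) := by
  obtain ⟨k, hk0, hkn, hk⟩ := Real.exists_nat_abs_mul_sub_round_le γ (n := 2 * N) (by omega)
  have hg0 : 0 < Int.gcd (round ((k : ℝ) * γ)) (k : ℤ) :=
    Int.gcd_pos_of_ne_zero_right _ (by exact_mod_cast hk0.ne')
  obtain ⟨a, q', hco, ha, hq⟩ := Int.exists_gcd_one hg0
  set g : ℕ := Int.gcd (round ((k : ℝ) * γ)) (k : ℤ) with hg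
  have hgpos : (0 : ℤ) < (g : ℤ) := by exact_mod_cast hg0
  have hkpos : (0 : ℤ) < (k : ℤ) := by exact_mod_cast hk0
  have hq'pos : 0 < q' := by
    rw [hq] at hkpos
    exact (mul_pos_iff_of_pos_right hgpos).mp hkpos
  obtain ⟨q, rfl⟩ : ∃ q : ℕ, q' = (q : ℤ) := ⟨q'.toNat, (Int.toNat_of_nonneg hq'pos.le).symm⟩
  have hq0 : 0 < q := by exact_mod_cast hq'pos
  have hkq : k = q * g := by exact_mod_cast hq
  have hg1 : 1 ≤ g := hg0
  refine ⟨q, a, hq0, ?_, Int.isCoprime_iff_gcd_eq_one.mpr hco, ?_⟩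
  · have : q ≤ k := by
      rw [hkq]
      exact Nat.le_mul_of_pos_right q hg0
    omega
  · have hgr : (1 : ℝ) ≤ (g : ℝ) := by exact_mod_cast hg1
    have hgr0 : (0 : ℝ) < (g : ℝ) := by linarith
    have e : (k : ℝ) * γ - (round ((k : ℝ) * γ) : ℝ) = (g : ℝ) * ((q : ℝ) * γ - a) := by
      have h1 : (k : ℝ) = (q : ℝ) * g := by exact_mod_cast hkq
      have h2 : ((round ((k : ℝ) * γ) : ℤ) : ℝ) = (a : ℝ) * g := by
        conv_lhs => rw [ha]
        push_cast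
        ring
      rw [h2, h1]
      ring
    have h3 : (g : ℝ) * |(q : ℝ) * γ - a| ≤ 1 / (((2 * N : ℕ) : ℝ) + 1) := by
      have := hk
      rw [e, abs_mul, abs_of_pos hgr0] at this
      exact this
    have h4 : ((2 * N : ℕ) : ℝ) + 1 = 2 * (N : ℝ) + 1 := by push_cast; ring
    rw [h4] at h3
    have h5 : 0 ≤ |(q : ℝ) * γ - a| := abs_nonneg _
    calc |(q : ℝ) * γ - a| ≤ (g : ℝ) * |(q : ℝ) * γ - a| := by nlinarith
      _ ≤ _ := h3

/-- `row_block` with `exists_reduced`: `N/q + 1 ≤ 3 N / q` as `q ≤ 2 N`, so the sum is at most `6 T N / q + 24 N`.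
By `Dio`, `κ / q ^ w ≤ 1/(2N+1) ≤ 1/N` so `q ^ w ≥ κ N`, `q ≥ (κ N) ^ (1/w)`, `N / q ≤ κ ^ (-1/w) N ^ (1-1/w)`. -/
theorem row_dir (γ κ w : ℝ) (hκ : 0 < κ) (hw : 1 ≤ w) (h : Dio γ κ w) (N : ℕ) (hN : 0 < N) (T : ℝ)
    (hT : 0 < T) :
    ∑ n ∈ Icc 1 N, min T (1 / (T * nrm ((n : ℝ) * γ) ^ 2)) ≤
      24 * (N : ℝ) + 6 * κ ^ (-(1 / w)) * (T * (N : ℝ) ^ (1 - 1 / w)) := by
  obtain ⟨q, a, hq, hqN, hco, hqa⟩ := exists_reduced γ N hN
  have hb := row_block γ q N hq hN a hco hqa T hT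
  have hq' : (0 : ℝ) < (q : ℝ) := by exact_mod_cast hq
  have hN' : (0 : ℝ) < (N : ℝ) := by exact_mod_cast hN
  have hqN' : (q : ℝ) ≤ 2 * (N : ℝ) := by exact_mod_cast hqN
  have hw0 : 0 < w := by linarith
  have h1 := h q hq a
  have hqw : (0 : ℝ) < (q : ℝ) ^ w := Real.rpow_pos_of_pos hq' w
  have h2 : κ / (q : ℝ) ^ w ≤ 1 / (2 * (N : ℝ) + 1) := h1.trans hqa
  have h3 : κ * (N : ℝ) ≤ (q : ℝ) ^ w := by
    rw [div_le_div_iff₀ hqw (by positivity)] at h2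
    nlinarith
  have h4 : (κ * (N : ℝ)) ^ (1 / w) ≤ (q : ℝ) := by
    have hh := Real.rpow_le_rpow (by positivity) h3 (by positivity : (0 : ℝ) ≤ 1 / w)
    rw [← Real.rpow_mul hq'.le, mul_one_div, div_self hw0.ne', Real.rpow_one] at hh
    exact hh
  have hk1 : (0 : ℝ) < κ ^ (1 / w) := Real.rpow_pos_of_pos hκ _
  have hN1 : (0 : ℝ) < (N : ℝ) ^ (1 / w) := Real.rpow_pos_of_pos hN' _
  have h5 : (N : ℝ) / q ≤ κ ^ (-(1 / w)) * (N : ℝ) ^ (1 - 1 / w) := by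
    rw [Real.mul_rpow hκ.le hN'.le] at h4
    rw [Real.rpow_neg hκ.le, Real.rpow_sub hN', Real.rpow_one]
    rw [div_le_iff₀ hq']
    have e : (κ ^ (1 / w))⁻¹ * ((N : ℝ) / (N : ℝ) ^ (1 / w)) * (κ ^ (1 / w) * (N : ℝ) ^ (1 / w)) =
        (N : ℝ) := by
      field_simp
    calc (N : ℝ) = (κ ^ (1 / w))⁻¹ * ((N : ℝ) / (N : ℝ) ^ (1 / w)) *
          (κ ^ (1 / w) * (N : ℝ) ^ (1 / w)) := e.symm
      _ ≤ (κ ^ (1 / w))⁻¹ * ((N : ℝ) / (N : ℝ) ^ (1 / w)) * q :=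
          mul_le_mul_of_nonneg_left h4 (by positivity)
  have h6 : ((N : ℝ) / q + 1) * (2 * T + 8 * q) ≤ 24 * (N : ℝ) + 6 * T * ((N : ℝ) / q) := by
    have h7 : (1 : ℝ) ≤ 2 * ((N : ℝ) / q) := by
      rw [← mul_div_assoc, one_le_div hq']
      exact hqN'
    have e8 : (N : ℝ) / q * q = N := by field_simp
    have h8 : 0 ≤ 2 * T + 8 * (q : ℝ) := by positivity
    calc ((N : ℝ) / q + 1) * (2 * T + 8 * q) ≤ (3 * ((N : ℝ) / q)) * (2 * T + 8 * q) :=
          mul_le_mul_of_nonneg_right (by linarith) h8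
      _ = 6 * T * ((N : ℝ) / q) + 24 * ((N : ℝ) / q * q) := by ring
      _ = 24 * (N : ℝ) + 6 * T * ((N : ℝ) / q) := by rw [e8]; ring
  have h9 : 6 * T * ((N : ℝ) / q) ≤ 6 * T * (κ ^ (-(1 / w)) * (N : ℝ) ^ (1 - 1 / w)) :=
    mul_le_mul_of_nonneg_left h5 (by positivity)
  calc ∑ n ∈ Icc 1 N, min T (1 / (T * nrm ((n : ℝ) * γ) ^ 2))
      ≤ ((N : ℝ) / q + 1) * (2 * T + 8 * q) := hb
    _ ≤ 24 * (N : ℝ) + 6 * T * ((N : ℝ) / q) := h6
    _ ≤ 24 * (N : ℝ) + 6 * T * (κ ^ (-(1 / w)) * (N : ℝ) ^ (1 - 1 / w)) := by linarith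
    _ = 24 * (N : ℝ) + 6 * κ ^ (-(1 / w)) * (T * (N : ℝ) ^ (1 - 1 / w)) := by ring

/-- With `θ = 1/(1+w²)`: `min a b ≤ a ^ θ * b ^ (1-θ)` for `a, b > 0`, and the exponent of `x` is
`w θ + (1 - 1/w)(1-θ) = w²/(1+w²)`, the exponent of `T` is `1 - θ = w²/(1+w²)`. -/
theorem min_rpow_le (x T w : ℝ) (hx : 0 < x) (hT : 0 < T) (hw : 1 ≤ w) :
    min (x ^ w) (T * x ^ (1 - 1 / w)) ≤ (x * T) ^ (w ^ 2 / (1 + w ^ 2)) := by
  have hw0 : 0 < w := by linarith
  have hd : 0 < 1 + w ^ 2 := by positivity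
  set θ : ℝ := 1 / (1 + w ^ 2) with hθ
  have hθ0 : 0 ≤ θ := by positivity
  have hθ1 : 0 ≤ 1 - θ := by
    have : θ ≤ 1 := by
      rw [hθ, div_le_one hd]
      nlinarith [sq_nonneg w]
    linarith
  have ha : 0 < x ^ w := Real.rpow_pos_of_pos hx w
  have hxb : 0 < x ^ (1 - 1 / w) := Real.rpow_pos_of_pos hx _
  have hb : 0 < T * x ^ (1 - 1 / w) := mul_pos hT hxb
  have hm : 0 < min (x ^ w) (T * x ^ (1 - 1 / w)) := lt_min ha hb
  have e0 : min (x ^ w) (T * x ^ (1 - 1 / w)) =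
      min (x ^ w) (T * x ^ (1 - 1 / w)) ^ θ * min (x ^ w) (T * x ^ (1 - 1 / w)) ^ (1 - θ) := by
    rw [← Real.rpow_add hm]
    simp
  have e1 : min (x ^ w) (T * x ^ (1 - 1 / w)) ^ θ ≤ (x ^ w) ^ θ :=
    Real.rpow_le_rpow hm.le (min_le_left _ _) hθ0
  have e2 : min (x ^ w) (T * x ^ (1 - 1 / w)) ^ (1 - θ) ≤ (T * x ^ (1 - 1 / w)) ^ (1 - θ) :=
    Real.rpow_le_rpow hm.le (min_le_right _ _) hθ1
  have e3 : (x ^ w) ^ θ * (T * x ^ (1 - 1 / w)) ^ (1 - θ) = (x * T) ^ (w ^ 2 / (1 + w ^ 2)) := by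
    have h1θ : 1 - θ = w ^ 2 / (1 + w ^ 2) := by
      rw [hθ]; field_simp; ring
    rw [Real.mul_rpow hT.le hxb.le, Real.mul_rpow hx.le hT.le, ← Real.rpow_mul hx.le,
      ← Real.rpow_mul hx.le, h1θ]
    have e4 : x ^ (w * θ) * (T ^ (w ^ 2 / (1 + w ^ 2)) * x ^ ((1 - 1 / w) * (w ^ 2 / (1 + w ^ 2)))) =
        (x ^ (w * θ) * x ^ ((1 - 1 / w) * (w ^ 2 / (1 + w ^ 2)))) * T ^ (w ^ 2 / (1 + w ^ 2)) := by ring
    rw [e4, ← Real.rpow_add hx]
    congr 2
    rw [hθ]; field_simp; ring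
  calc min (x ^ w) (T * x ^ (1 - 1 / w)) =
      min (x ^ w) (T * x ^ (1 - 1 / w)) ^ θ * min (x ^ w) (T * x ^ (1 - 1 / w)) ^ (1 - θ) := e0
    _ ≤ (x ^ w) ^ θ * (T * x ^ (1 - 1 / w)) ^ (1 - θ) :=
        mul_le_mul e1 e2 (Real.rpow_nonneg hm.le _) (Real.rpow_nonneg ha.le _)
    _ = (x * T) ^ (w ^ 2 / (1 + w ^ 2)) := e3

/-- Combination: the sum is at most `min (4 N^w/κ) (24 N + 6 κ^(-1/w) T N^(1-1/w))`, hence at most
`24 N + (4/κ + 6 κ^(-1/w)) min (N^w) (T N^(1-1/w))`. For `N = 0` the sum is empty. -/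
theorem row_bd (γ κ w : ℝ) (hκ : 0 < κ) (hw : 1 ≤ w) (h : Dio γ κ w) :
    RowBd γ (24 + 4 / κ + 6 * κ ^ (-(1 / w))) (w ^ 2 / (1 + w ^ 2)) := by
  intro N T hT
  have hk' : 0 < κ ^ (-(1 / w)) := Real.rpow_pos_of_pos hκ _
  have hc0 : 0 < 4 / κ := by positivity
  set e : ℝ := w ^ 2 / (1 + w ^ 2) with he
  rcases Nat.eq_zero_or_pos N with rfl | hN
  · simp only [Nat.cast_zero, zero_mul, zero_add]
    have h0 : Icc 1 0 = (∅ : Finset ℕ) := by decide
    rw [h0, Finset.sum_empty]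
    have hr : (0 : ℝ) ≤ (0 : ℝ) ^ e := Real.rpow_nonneg le_rfl e
    positivity
  · have hN' : (0 : ℝ) < (N : ℝ) := by exact_mod_cast hN
    have hs := row_sep γ κ w hκ hw h N T hT
    have hd := row_dir γ κ w hκ hw h N hN T hT
    have hA : 0 < (N : ℝ) ^ w := Real.rpow_pos_of_pos hN' w
    have hB : 0 < T * (N : ℝ) ^ (1 - 1 / w) := mul_pos hT (Real.rpow_pos_of_pos hN' _)
    have hm := min_rpow_le (N : ℝ) T w hN' hT hw
    have hP : 0 < ((N : ℝ) * T) ^ e := Real.rpow_pos_of_pos (mul_pos hN' hT) _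
    have key : ∑ n ∈ Icc 1 N, min T (1 / (T * nrm ((n : ℝ) * γ) ^ 2)) ≤
        24 * (N : ℝ) + (4 / κ + 6 * κ ^ (-(1 / w))) *
          min ((N : ℝ) ^ w) (T * (N : ℝ) ^ (1 - 1 / w)) := by
      rcases le_total ((N : ℝ) ^ w) (T * (N : ℝ) ^ (1 - 1 / w)) with hle | hle
      · rw [min_eq_left hle]
        have e1 : 4 * (N : ℝ) ^ w / κ = 4 / κ * (N : ℝ) ^ w := by ring
        have e2 : 0 ≤ 6 * κ ^ (-(1 / w)) * (N : ℝ) ^ w := by positivity
        nlinarith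
      · rw [min_eq_right hle]
        have e2 : 0 ≤ 4 / κ * (T * (N : ℝ) ^ (1 - 1 / w)) := by positivity
        nlinarith
    have hc1 : 0 ≤ 4 / κ + 6 * κ ^ (-(1 / w)) := by positivity
    have h2 := mul_le_mul_of_nonneg_left hm hc1
    have h3 : 0 ≤ 24 * ((N : ℝ) * T) ^ e := by positivity
    have h4 : 0 ≤ (4 / κ + 6 * κ ^ (-(1 / w))) * (N : ℝ) := by positivity
    calc ∑ n ∈ Icc 1 N, min T (1 / (T * nrm ((n : ℝ) * γ) ^ 2))
        ≤ 24 * (N : ℝ) + (4 / κ + 6 * κ ^ (-(1 / w))) *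
          min ((N : ℝ) ^ w) (T * (N : ℝ) ^ (1 - 1 / w)) := key
      _ ≤ 24 * (N : ℝ) + (4 / κ + 6 * κ ^ (-(1 / w))) * ((N : ℝ) * T) ^ e := by linarith
      _ ≤ (24 + 4 / κ + 6 * κ ^ (-(1 / w))) * ((N : ℝ) + ((N : ℝ) * T) ^ e) := by nlinarith

end Vale.Agent.Lib.P028H
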