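import Vale.Agent.Lib.P028H.Main
import Vale.Agent.Results.P028.AA_erdos_vaaler

/-! Combining the large sieve theorem with the Erdős-Vaaler theorem: only the part of `ψ` above `1/q` is constrained. -/

open scoped BigOperators
open Filter MeasureTheory

namespace Vale.Agent.Lib.P028H

/-- The part of `ψ` above `1/q`. -/
noncomputable def upper (ψ : ℕ → ℝ) (q : ℕ) : ℝ := if 1 / (q : ℝ) < ψ q then ψ q else 0

theorem upper_nonneg {ψ : ℕ → ℝ} (h0 : ∀ q, 0 ≤ ψ q) (q : ℕ) : 0 ≤ upper ψ q := by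
  unfold upper
  split_ifs
  · exact h0 q
  · exact le_rfl

theorem upper_le {ψ : ℕ → ℝ} (h0 : ∀ q, 0 ≤ ψ q) (q : ℕ) : upper ψ q ≤ ψ q := by
  unfold upper
  split_ifs
  · exact le_rfl
  · exact h0 q

theorem upper_pos {ψ : ℕ → ℝ} {q : ℕ} (h : 0 < upper ψ q) : 1 / (q : ℝ) < ψ q ∧ upper ψ q = ψ q := by
  unfold upper at h ⊢
  split_ifs at h ⊢ with hc
  · exact ⟨hc, rfl⟩
  · exact absurd h (lt_irrefl _)

/-- Either the truncated sum of Erdős-Vaaler or the sum over the upper part diverges. -/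
theorem split_div {ψ : ℕ → ℝ} (h0 : ∀ q, 0 ≤ ψ q)
    (hdiv : ¬ Summable (fun q : ℕ => (Nat.totient q : ℝ) / q * ψ q)) :
    ¬ Summable (fun q : ℕ => ((Nat.totient q : ℝ) / q) * min (ψ q) (1 / (q : ℝ))) ∨
      ¬ Summable (fun q : ℕ => (Nat.totient q : ℝ) / q * upper ψ q) := by
  by_contra hc
  push Not at hc
  obtain ⟨h1, h2⟩ := hc
  apply hdiv
  refine Summable.of_nonneg_of_le (fun q => mul_nonneg (by positivity) (h0 q)) (fun q => ?_) (h1.add h2)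
  have hφ : 0 ≤ (Nat.totient q : ℝ) / q := by positivity
  have hle : ψ q ≤ min (ψ q) (1 / (q : ℝ)) + upper ψ q := by
    unfold upper
    split_ifs with hq
    · have : 0 ≤ min (ψ q) (1 / (q : ℝ)) := le_min (h0 q) (by positivity)
      linarith
    · rw [add_zero]
      exact le_min le_rfl (not_lt.1 hq)
  calc (Nat.totient q : ℝ) / q * ψ q ≤ (Nat.totient q : ℝ) / q * (min (ψ q) (1 / (q : ℝ)) + upper ψ q) :=
        mul_le_mul_of_nonneg_left hle hφ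
    _ = _ := by ring

/-- Explicit Diophantine type: only the part of `ψ` above `1/q` is constrained. -/
theorem union_dio (γ κ w : ℝ) (hκ : 0 < κ) (hw : 1 ≤ w)
    (hdio : ∀ n : ℕ, 0 < n → ∀ a : ℤ, κ / (n : ℝ) ^ w ≤ |(n : ℝ) * γ - a|)
    (ψ : ℕ → ℝ) (h0 : ∀ q, 0 ≤ ψ q) (A : ℝ) (hA : 1 ≤ A) (q₀ : ℕ)
    (hmono : ∀ q r : ℕ, q₀ ≤ q → 1 / (q : ℝ) < ψ q → 1 / (r : ℝ) < ψ r → 2 * q ≤ r → ψ r ≤ A * ψ q)
    (hsize : ∀ q, q₀ ≤ q → 1 / (q : ℝ) < ψ q →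
      (q.divisors.card : ℝ) ^ (1 + w ^ 2) * ψ q * (q : ℝ) ^ ((1 + w ^ 2) / (2 + w ^ 2)) ≤ 1)
    (hdiv : ¬ Summable (fun q : ℕ => (Nat.totient q : ℝ) / q * ψ q)) :
    ∀ᵐ x : ℝ, ∃ᶠ q : ℕ in atTop, ∃ a : ℤ, |(q : ℝ) * x - a - γ| < ψ q := by
  rcases split_div h0 hdiv with h | h
  · exact Vale.Agent.Results.P028.AA_erdos_vaaler.result γ ψ h0 (Or.inl h)
  · have key := final_dio γ κ w hκ hw hdio (upper ψ) (upper_nonneg h0) A hA q₀
      (fun q r hq hq' hr' hqr => by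
        obtain ⟨h1, e1⟩ := upper_pos hq'
        obtain ⟨h2, e2⟩ := upper_pos hr'
        rw [e1, e2]
        exact hmono q r hq h1 h2 hqr)
      (fun q hq hq' => by
        obtain ⟨h1, e1⟩ := upper_pos hq'
        rw [e1]
        exact hsize q hq h1) h
    exact Vale.Agent.Lib.P028E.ae_mono (upper_le h0) key

/-- Every non-Liouville irrational shift: only the part of `ψ` above `1/q` is constrained. -/
theorem union_nonLiouville (γ : ℝ) (hirr : Irrational γ) (hL : ¬ Liouville γ) :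
    ∃ β : ℝ, β < 1 ∧ ∀ (ψ : ℕ → ℝ) (A C₁ : ℝ) (q₀ : ℕ), (∀ q, 0 ≤ ψ q) → 1 ≤ A →
      (∀ q r : ℕ, q₀ ≤ q → 1 / (q : ℝ) < ψ q → 1 / (r : ℝ) < ψ r → 2 * q ≤ r → ψ r ≤ A * ψ q) →
      (∀ q, q₀ ≤ q → 1 / (q : ℝ) < ψ q → ψ q ≤ C₁ * (q : ℝ) ^ (-β)) →
      ¬ Summable (fun q : ℕ => (Nat.totient q : ℝ) / q * ψ q) →
      ∀ᵐ x : ℝ, ∃ᶠ q : ℕ in atTop, ∃ a : ℤ, |(q : ℝ) * x - a - γ| < ψ q := by
  obtain ⟨β, hβ, hmain⟩ := final_nonLiouville γ hirr hL
  refine ⟨β, hβ, fun ψ A C₁ q₀ h0 hA hmono hsize hdiv => ?_⟩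
  rcases split_div h0 hdiv with h | h
  · exact Vale.Agent.Results.P028.AA_erdos_vaaler.result γ ψ h0 (Or.inl h)
  · have key := hmain (upper ψ) A (max C₁ 0) q₀ (upper_nonneg h0) hA
      (fun q r hq hq' hr' hqr => by
        obtain ⟨h1, e1⟩ := upper_pos hq'
        obtain ⟨h2, e2⟩ := upper_pos hr'
        rw [e1, e2]
        exact hmono q r hq h1 h2 hqr)
      (fun q hq => by
        have hp : 0 ≤ (q : ℝ) ^ (-β) := Real.rpow_nonneg (Nat.cast_nonneg _) _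
        by_cases hq' : 0 < upper ψ q
        · obtain ⟨h1, e1⟩ := upper_pos hq'
          rw [e1]
          exact (hsize q hq h1).trans (mul_le_mul_of_nonneg_right (le_max_left _ _) hp)
        · have : upper ψ q = 0 := le_antisymm (not_lt.1 hq') (upper_nonneg h0 q)
          rw [this]
          exact mul_nonneg (le_max_right _ _) hp) h
    exact Vale.Agent.Lib.P028E.ae_mono (upper_le h0) key

end Vale.Agent.Lib.P028H
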